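import Mathlib

/-! # Row 271, block T2: elementary limits

`(m+1)^d ≤ d! * (m+d).choose d = (m+1).ascFactorial d ≤ (m+d)^d` (`Nat.ascFactorial_eq_factorial_mul_choose`,
`Nat.pow_succ_le_ascFactorial`, `Nat.ascFactorial_le_pow_add`); Bernoulli `one_add_mul_le_pow`. -/

set_option autoImplicit false

open Filter Topology

namespace Crest.Agent.R271.T2

theorem pow_le_choose (m d : ℕ) : (m : ℝ) ^ d / d.factorial ≤ (m + d).choose d := by
  rw [div_le_iff₀ (by positivity), mul_comm]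
  have h := (Nat.pow_le_pow_left (Nat.le_succ m) d).trans (Nat.pow_succ_le_ascFactorial (m + 1) d)
  rw [Nat.ascFactorial_eq_factorial_mul_choose] at h
  exact_mod_cast h

theorem choose_le_pow (m d : ℕ) : ((m + d).choose d : ℝ) ≤ ((m : ℝ) + d) ^ d / d.factorial := by
  rw [le_div_iff₀ (by positivity), mul_comm]
  have h := Nat.ascFactorial_le_pow_add m d
  rw [Nat.ascFactorial_eq_factorial_mul_choose] at h
  exact_mod_cast h

theorem lim_aux (ρ d : ℕ) (c : ℝ) :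
    Tendsto (fun j : ℕ => (ρ : ℝ) / d.factorial * (1 + c / j) ^ d) atTop (𝓝 (ρ / d.factorial)) := by
  simpa using (((tendsto_const_nhds (x := (1 : ℝ))).add (tendsto_const_div_atTop_nhds_zero_nat c)).pow d).const_mul
    ((ρ : ℝ) / d.factorial)

theorem tendsto_of_sandwich {h : ℕ → ℕ} {ρ d B e : ℕ} (h1 : ∀ m, ρ * (m + d).choose d ≤ h (B + m))
    (h2 : ∀ m, h m ≤ ρ * (m + e + d).choose d) :
    Tendsto (fun j : ℕ => (h j : ℝ) / (j : ℝ) ^ d) atTop (𝓝 (ρ / d.factorial)) := by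
  refine tendsto_of_tendsto_of_tendsto_of_le_of_le' (lim_aux ρ d (-B)) (lim_aux ρ d (e + d)) ?_ ?_
  · filter_upwards [eventually_ge_atTop B, eventually_gt_atTop 0] with j hj hj0
    have hj' : (0 : ℝ) < j := by exact_mod_cast hj0
    obtain ⟨m, rfl⟩ := Nat.exists_eq_add_of_le hj
    have h3 : (ρ : ℝ) * (m + d).choose d ≤ h (B + m) := by exact_mod_cast h1 m
    have h4 := mul_le_mul_of_nonneg_left (pow_le_choose m d) (Nat.cast_nonneg (α := ℝ) ρ)
    have e : (1 : ℝ) + -B / (B + m : ℕ) = m / (B + m : ℕ) := by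
      field_simp
      push_cast
      ring
    rw [e, div_pow, ← mul_div_assoc]
    refine div_le_div_of_nonneg_right (le_trans (le_of_eq ?_) (h4.trans h3)) (by positivity)
    ring
  · filter_upwards [eventually_gt_atTop 0] with j hj0
    have hj' : (0 : ℝ) < j := by exact_mod_cast hj0
    have h3 : (h j : ℝ) ≤ ρ * (j + e + d).choose d := by exact_mod_cast h2 j
    have h4 := mul_le_mul_of_nonneg_left (choose_le_pow (j + e) d) (Nat.cast_nonneg (α := ℝ) ρ)
    have e' : (1 : ℝ) + (e + d) / j = (j + e + d) / j := by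
      field_simp
      ring
    rw [e', div_pow, ← mul_div_assoc]
    refine div_le_div_of_nonneg_right ((h3.trans h4).trans (le_of_eq ?_)) (by positivity)
    push_cast
    ring

theorem tendsto_mul_index {h : ℕ → ℕ} {d e : ℕ} (he : 0 < e) {a : ℝ}
    (ht : Tendsto (fun j : ℕ => (h j : ℝ) / (j : ℝ) ^ d) atTop (𝓝 a)) :
    Tendsto (fun j : ℕ => (h (j * e) : ℝ) / (j : ℝ) ^ d) atTop (𝓝 (a * (e : ℝ) ^ d)) := by
  refine ((ht.comp (tendsto_id.atTop_mul_const' he)).mul_const ((e : ℝ) ^ d)).congr fun j => ?_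
  have : (e : ℝ) ^ d ≠ 0 := by positivity
  simp only [Function.comp, id, Nat.cast_mul, mul_pow]
  rw [div_mul_eq_mul_div, mul_div_mul_right _ _ this]

theorem exists_bernoulli (n J : ℕ) {ε : ℝ} (hε : 0 < ε) : ∃ j₀ : ℕ, J ≤ j₀ ∧ ∀ j, j₀ ≤ j → ∀ d, d ≤ n →
    (1 - ε) * (j : ℝ) ^ d ≤ ((j - J : ℕ) : ℝ) ^ d := by
  obtain ⟨N, hN⟩ := exists_nat_ge ((n : ℝ) * J / ε)
  refine ⟨N + J + 1, by omega, fun j hj d hd => ?_⟩
  have hj0 : (0 : ℝ) < j := by exact_mod_cast (by omega : 0 < j)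
  have hJ : (J : ℝ) ≤ j := by exact_mod_cast (by omega : J ≤ j)
  have h1 : (J : ℝ) / j ≤ 1 := div_le_one_of_le₀ hJ hj0.le
  have h2 := one_add_mul_le_pow (a := -((J : ℝ) / j)) (by linarith) d
  have h3 : (d : ℝ) * (J / j) ≤ ε := by
    rw [← mul_div_assoc, div_le_iff₀ hj0]
    rw [div_le_iff₀ hε] at hN
    have h4 : (N : ℝ) ≤ j := by exact_mod_cast (by omega : N ≤ j)
    have h5 : (d : ℝ) ≤ n := by exact_mod_cast hd
    nlinarith [mul_le_mul_of_nonneg_right h5 (Nat.cast_nonneg (α := ℝ) J)]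
  have e : ((j - J : ℕ) : ℝ) = (1 + -((J : ℝ) / j)) * j := by
    rw [Nat.cast_sub (by omega)]
    field_simp
    ring
  rw [e, mul_pow]
  exact mul_le_mul_of_nonneg_right (by linarith) (by positivity)

theorem pow_le_of_coprime {k k' a b c ρ ρ' d : ℕ} (hb : a * k = b * k' + 1) (hc : 0 < c) (hρ : 0 < ρ)
    (h : ρ * (c * k') ^ d = ρ' * (c * k) ^ d) : k ^ d ≤ ρ := by
  have hco : Nat.Coprime k k' := by
    refine Nat.isCoprime_iff_coprime.1 ⟨a, -b, ?_⟩
    have : (a : ℤ) * k = b * k' + 1 := by exact_mod_cast hb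
    linarith
  rw [mul_pow, mul_pow, mul_left_comm, mul_left_comm ρ'] at h
  have h1 := Nat.eq_of_mul_eq_mul_left (pow_pos hc d) h
  exact Nat.le_of_dvd hρ ((hco.pow d d).dvd_of_dvd_mul_right ⟨ρ', by rw [h1, mul_comm]⟩)

end Crest.Agent.R271.T2
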