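import Crest.Agent.R271.T2.Poly

/-! # Row 271, block T2: rank over the field `ℂ(x)`

`lower`/`upper`: `Submodule.exists_fun_fin_finrank_span_eq` gives a basis `s` of `Vs x N` taken from `N`; the map
`(Fin r → restrictTotalDegree m) → L`, `P ↦ ∑ aeval x (P i) * s i` is `ℂ`-linear, injective, with range in `Pm x m * N`
(`finrank_restrict`).  For `upper`: every `w ∈ Vs x N` has `h * w ∈ Pm x e * span (range s)` for some `e` and `0 ≠ h ∈ Pm x e`
(span induction, `IntermediateField.mem_adjoin_range_iff`); take a common `h` for a finite spanning set of `N`; multiplication by `h`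
is injective.  `growth`: if `Vs (W (j+1)) = Vs (W j)`, `j ≥ B`, then the sequence is constant from `j` on.
`isAlgebraic_of_red`: `w` preserves the finite dimensional non-zero space `Vs x (W B)` (`isIntegral_of_smul_mem_submodule`). -/

set_option autoImplicit false

open Set Module MvPolynomial

noncomputable section

namespace Crest.Agent.R271.T2

variable {L : Type} [Field L] [Algebra ℂ L] {W : ℕ → Submodule ℂ L} {d : ℕ}

/-- the field `ℂ(x)` -/
abbrev L0 (x : Fin d → L) : IntermediateField ℂ L := IntermediateField.adjoin ℂ (range x)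

/-- the span over `ℂ(x)` -/
def Vs (x : Fin d → L) (N : Submodule ℂ L) : Submodule (L0 x) L := Submodule.span (L0 x) (N : Set L)

/-- the rank over `ℂ(x)` -/
def rk (x : Fin d → L) (N : Submodule ℂ L) : ℕ := finrank (L0 x) (Vs x N)

theorem fd_Vs (x : Fin d → L) (N : Submodule ℂ L) [FiniteDimensional ℂ N] :
    FiniteDimensional (L0 x) (Vs x N) := by
  obtain ⟨S, hS⟩ := (Submodule.fg_iff_finiteDimensional N).2 inferInstance
  rw [Vs, ← hS, Submodule.span_span_of_tower]
  exact FiniteDimensional.span_of_finite _ S.finite_toSet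

theorem rk_mono (x : Fin d → L) {N N' : Submodule ℂ L} [FiniteDimensional ℂ N'] (h : Vs x N ≤ Vs x N') :
    rk x N ≤ rk x N' := by
  have := fd_Vs x N'
  exact Submodule.finrank_mono h

theorem rk_pos (x : Fin d → L) {N : Submodule ℂ L} [FiniteDimensional ℂ N] (h : (1 : L) ∈ N) : 0 < rk x N := by
  have := fd_Vs x N
  exact Module.finrank_pos_iff_exists_ne_zero.2
    ⟨⟨1, Submodule.subset_span h⟩, fun h0 => one_ne_zero (congrArg Subtype.val h0)⟩

/-- `P ↦ ∑ P i (x) * s i` -/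
def rkMap (x : Fin d → L) {r : ℕ} (s : Fin r → L) (m : ℕ) :
    (Fin r → restrictTotalDegree (Fin d) ℂ m) →ₗ[ℂ] L :=
  ∑ i, LinearMap.mulRight ℂ (s i) ∘ₗ (aeval x : MvPolynomial (Fin d) ℂ →ₐ[ℂ] L).toLinearMap ∘ₗ
    (restrictTotalDegree (Fin d) ℂ m).subtype ∘ₗ LinearMap.proj i

theorem rkMap_apply (x : Fin d → L) {r : ℕ} (s : Fin r → L) (m : ℕ)
    (P : Fin r → restrictTotalDegree (Fin d) ℂ m) :
    rkMap x s m P = ∑ i, aeval x (P i : MvPolynomial (Fin d) ℂ) * s i := by
  simp [rkMap, LinearMap.sum_apply]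

theorem rkMap_finrank (r m : ℕ) :
    finrank ℂ (Fin r → restrictTotalDegree (Fin d) ℂ m) = r * (m + d).choose d := by
  rw [Module.finrank_pi_fintype]
  simp [finrank_restrict]

theorem mem_range_rkMap {x : Fin d → L} {r : ℕ} {s : Fin r → L} {m : ℕ} {w : L} :
    w ∈ LinearMap.range (rkMap x s m) ↔ ∃ c : Fin r → L, (∀ i, c i ∈ Pm x m) ∧ ∑ i, c i * s i = w := by
  constructor
  · rintro ⟨P, rfl⟩
    exact ⟨fun i => aeval x (P i : MvPolynomial (Fin d) ℂ),
      fun i => mem_Pm.2 ⟨P i, (mem_restrictTotalDegree _ _ _).1 (P i).2, rfl⟩, (rkMap_apply x s m P).symm⟩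
  · rintro ⟨c, hc, rfl⟩
    choose P hP hP' using fun i => mem_Pm.1 (hc i)
    refine ⟨fun i => ⟨P i, (mem_restrictTotalDegree _ _ _).2 (hP i)⟩, ?_⟩
    rw [rkMap_apply]
    simp [hP']

theorem rk_Pm_mul {x : Fin d → L} {a b : ℕ} {p q : L} (hp : p ∈ Pm x a) (hq : q ∈ Pm x b) :
    p * q ∈ Pm x (a + b) := by
  obtain ⟨P, hP, rfl⟩ := mem_Pm.1 hp
  obtain ⟨Q, hQ, rfl⟩ := mem_Pm.1 hq
  exact mem_Pm.2 ⟨P * Q, (totalDegree_mul P Q).trans (add_le_add hP hQ), map_mul _ _ _⟩

theorem rk_one_mem_Pm (x : Fin d → L) (a : ℕ) : (1 : L) ∈ Pm x a :=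
  mem_Pm.2 ⟨1, by simp, map_one _⟩

theorem rk_mul_mem_range {x : Fin d → L} {r : ℕ} {s : Fin r → L} {a b : ℕ} {p w : L} (hp : p ∈ Pm x a)
    (hw : w ∈ LinearMap.range (rkMap x s b)) : p * w ∈ LinearMap.range (rkMap x s (a + b)) := by
  obtain ⟨c, hc, rfl⟩ := mem_range_rkMap.1 hw
  refine mem_range_rkMap.2 ⟨fun i => p * c i, fun i => rk_Pm_mul hp (hc i), ?_⟩
  simp [Finset.mul_sum, mul_assoc]

theorem rk_clear {x : Fin d → L} {r : ℕ} {s : Fin r → L} {w : L}
    (hw : w ∈ Submodule.span (L0 x) (range s)) :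
    ∃ e : ℕ, ∃ h ∈ Pm x e, h ≠ 0 ∧ h * w ∈ LinearMap.range (rkMap x s e) := by
  classical
  induction hw using Submodule.span_induction with
  | mem w hw =>
    obtain ⟨i, rfl⟩ := hw
    refine ⟨0, 1, rk_one_mem_Pm x 0, one_ne_zero, mem_range_rkMap.2 ⟨Pi.single i 1, fun j => ?_, ?_⟩⟩
    · by_cases h : j = i
      · subst h; simpa using rk_one_mem_Pm x 0
      · simp [h]
    · simp [Pi.single_apply]
  | zero => exact ⟨0, 1, rk_one_mem_Pm x 0, one_ne_zero, by simp⟩
  | add w₁ w₂ _ _ h₁ h₂ =>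
    obtain ⟨e₁, a₁, ha₁, hn₁, hw₁⟩ := h₁
    obtain ⟨e₂, a₂, ha₂, hn₂, hw₂⟩ := h₂
    refine ⟨e₁ + e₂, a₁ * a₂, rk_Pm_mul ha₁ ha₂, mul_ne_zero hn₁ hn₂, ?_⟩
    have h1 := rk_mul_mem_range ha₂ hw₁
    rw [add_comm] at h1
    have h2 := Submodule.add_mem _ h1 (rk_mul_mem_range ha₁ hw₂)
    convert h2 using 1
    ring
  | smul a w _ h =>
    obtain ⟨e, b, hb, hn, hw⟩ := h
    obtain ⟨P, Q, hPQ⟩ := (IntermediateField.mem_adjoin_range_iff ℂ x (a : L)).1 a.2
    have ha : a • w = (a : L) * w := rfl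
    by_cases hQ : aeval x Q = 0
    · refine ⟨0, 1, rk_one_mem_Pm x 0, one_ne_zero, ?_⟩
      rw [ha, hPQ, hQ]; simp
    · refine ⟨(P.totalDegree + Q.totalDegree) + e, aeval x Q * b,
        rk_Pm_mul (mem_Pm.2 ⟨Q, Nat.le_add_left _ _, rfl⟩) hb, mul_ne_zero hQ hn, ?_⟩
      have h1 := rk_mul_mem_range (a := P.totalDegree + Q.totalDegree)
        (mem_Pm.2 ⟨P, Nat.le_add_right _ _, rfl⟩) hw
      convert h1 using 1
      rw [ha, hPQ]
      field_simp

theorem rk_clear_fin {x : Fin d → L} {r : ℕ} {s : Fin r → L} (S : Finset L)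
    (hS : ∀ w ∈ S, w ∈ Submodule.span (L0 x) (range s)) :
    ∃ e : ℕ, ∃ h ∈ Pm x e, h ≠ 0 ∧ ∀ w ∈ S, h * w ∈ LinearMap.range (rkMap x s e) := by
  classical
  induction S using Finset.induction_on with
  | empty => exact ⟨0, 1, rk_one_mem_Pm x 0, one_ne_zero, by simp⟩
  | insert v S _ ih =>
    obtain ⟨e₁, a₁, ha₁, hn₁, hw₁⟩ := rk_clear (hS v (Finset.mem_insert_self _ _))
    obtain ⟨e₂, a₂, ha₂, hn₂, hw₂⟩ := ih fun w hw => hS w (Finset.mem_insert_of_mem hw)
    refine ⟨e₁ + e₂, a₁ * a₂, rk_Pm_mul ha₁ ha₂, mul_ne_zero hn₁ hn₂, fun w hw => ?_⟩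
    rcases Finset.mem_insert.1 hw with rfl | hw
    · have h1 := rk_mul_mem_range ha₂ hw₁
      rw [add_comm] at h1
      convert h1 using 1
      ring
    · have h1 := rk_mul_mem_range ha₁ (hw₂ w hw)
      convert h1 using 1
      ring

theorem lower {x : Fin d → L} (hx : AlgebraicIndependent ℂ x) (N : Submodule ℂ L) [FiniteDimensional ℂ N]
    {N' : Submodule ℂ L} [FiniteDimensional ℂ N'] {m : ℕ} (h : Pm x m * N ≤ N') :
    rk x N * (m + d).choose d ≤ finrank ℂ N' := by
  have : Module.Finite (L0 x) (Submodule.span (L0 x) (N : Set L)) := fd_Vs x N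
  obtain ⟨s, hs, -, hi⟩ := Submodule.exists_fun_fin_finrank_span_eq (L0 x) (N : Set L)
  have hm : ∀ P, rkMap x s m P ∈ N' := by
    intro P
    rw [rkMap_apply]
    exact Submodule.sum_mem _ fun i _ => h (Submodule.mul_mem_mul
      (mem_Pm.2 ⟨P i, (mem_restrictTotalDegree _ _ _).1 (P i).2, rfl⟩) (hs i))
  have hinj : Function.Injective ((rkMap x s m).codRestrict N' hm) := by
    rw [injective_iff_map_eq_zero]
    intro P hP
    have h0 : rkMap x s m P = 0 := congrArg Subtype.val hP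
    rw [rkMap_apply] at h0
    have hmem : ∀ i, aeval x (P i : MvPolynomial (Fin d) ℂ) ∈ L0 x := fun i =>
      (IntermediateField.mem_adjoin_range_iff ℂ x _).2 ⟨P i, 1, by simp⟩
    have h1 := Fintype.linearIndependent_iff.1 hi (fun i => ⟨_, hmem i⟩) h0
    funext i
    have h2 : aeval x (P i : MvPolynomial (Fin d) ℂ) = 0 := congrArg Subtype.val (h1 i)
    exact Subtype.ext ((injective_iff_map_eq_zero _).1 hx _ h2)
  have h3 := LinearMap.finrank_le_finrank_of_injective hinj
  rw [rkMap_finrank] at h3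
  exact h3

theorem upper (x : Fin d → L) (N : Submodule ℂ L) [FiniteDimensional ℂ N] :
    ∃ e : ℕ, ∀ (m : ℕ) (N' : Submodule ℂ L), N' ≤ Pm x m * N →
      finrank ℂ N' ≤ rk x N * (m + e + d).choose d := by
  have : Module.Finite (L0 x) (Submodule.span (L0 x) (N : Set L)) := fd_Vs x N
  obtain ⟨s, -, hsp, -⟩ := Submodule.exists_fun_fin_finrank_span_eq (L0 x) (N : Set L)
  obtain ⟨S, hS⟩ := (Submodule.fg_iff_finiteDimensional N).2 inferInstance
  obtain ⟨e, h, -, hn, hw⟩ := rk_clear_fin (x := x) (s := s) S fun w hw => by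
    rw [hsp]; exact Submodule.subset_span (by rw [← hS]; exact Submodule.subset_span hw)
  have hN : ∀ w ∈ N, h * w ∈ LinearMap.range (rkMap x s e) := by
    intro w hw'
    rw [← hS] at hw'
    induction hw' using Submodule.span_induction with
    | mem w hw' => exact hw w hw'
    | zero => simp
    | add a b _ _ ha hb => rw [mul_add]; exact Submodule.add_mem _ ha hb
    | smul c a _ ha => rw [mul_smul_comm]; exact Submodule.smul_mem _ _ ha
  refine ⟨e, fun m N' hN' => ?_⟩
  have hm : ∀ w : N', ((LinearMap.mulLeft ℂ h).domRestrict N') w ∈ LinearMap.range (rkMap x s (m + e)) := by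
    intro w
    show h * (w : L) ∈ _
    refine Submodule.mul_induction_on (hN' w.2) (fun p hp v hv => ?_) (fun a b ha hb => ?_)
    · rw [mul_left_comm]; exact rk_mul_mem_range hp (hN v hv)
    · rw [mul_add]; exact Submodule.add_mem _ ha hb
  have hinj : Function.Injective (((LinearMap.mulLeft ℂ h).domRestrict N').codRestrict _ hm) := by
    intro a b hab
    have h0 : h * (a : L) = h * (b : L) := congrArg Subtype.val hab
    exact Subtype.ext (mul_left_cancel₀ hn h0)
  have h3 := (LinearMap.finrank_le_finrank_of_injective hinj).trans (LinearMap.finrank_range_le _)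
  rw [rkMap_finrank] at h3
  exact h3

theorem mul_mem_Vs (x : Fin d → L) (hW : Fil W) {i j : ℕ} {a v : L} (ha : a ∈ W i) (hv : v ∈ Vs x (W j)) :
    a * v ∈ Vs x (W (i + j)) :=
  Submodule.span_le (p := (Vs x (W (i + j))).comap (LinearMap.mulLeft (L0 x) a)).2
    (fun _ hb => Submodule.subset_span (hW.mul_mem ha hb)) hv

theorem Vs_le_of_red {x : Fin d → L} (hW : Fil W) {B : ℕ} (hR : Red W (Tx x) B) (j : ℕ) :
    Vs x (W j) ≤ Vs x (W B) := by
  refine Submodule.span_le.2 fun w hw => Submodule.mul_induction_on (hR.le_pow' hW (one_mem_Tx x) j hw)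
    (fun a ha b hb => ?_) fun a b ha hb => add_mem ha hb
  obtain ⟨P, -, rfl⟩ := mem_Pm.1 (Tx_pow x j ▸ ha)
  exact Submodule.smul_mem (Vs x (W B)) ⟨aeval x P, IntermediateField.algebra_adjoin_le_adjoin ℂ _
    (Algebra.adjoin_range_eq_range_aeval ℂ x ▸ ⟨P, rfl⟩)⟩ (Submodule.subset_span hb)

theorem growth (x : Fin d → L) (hW : Fil W) {T : Submodule ℂ L} {B : ℕ} (hR : Red W T B) {r j₀ : ℕ}
    (hr : r ≤ rk x (W j₀)) : r ≤ rk x (W (B + r)) := by
  have fd := hW.fd
  have mono : ∀ {i j}, i ≤ j → Vs x (W i) ≤ Vs x (W j) := fun h => Submodule.span_mono (hW.mono h)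
  have st : ∀ j, B ≤ j → Vs x (W (j + 1)) ≤ Vs x (W j) → ∀ n, Vs x (W (j + n + 1)) ≤ Vs x (W (j + n)) := by
    intro j hj h n
    induction n with
    | zero => exact h
    | succ n ih =>
      exact Submodule.span_le.2 fun w hw => Submodule.mul_induction_on (hR.2 (j + n + 1) (by omega) hw)
        (fun a ha b hb => mono (by omega) (mul_mem_Vs x hW (hR.1 ha) (ih (Submodule.subset_span hb))))
        fun a b ha hb => add_mem ha hb
  have key : ∀ i, i ≤ rk x (W (B + i)) ∨ ∀ n, Vs x (W n) ≤ Vs x (W (B + i)) := by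
    intro i
    induction i with
    | zero => exact .inl (Nat.zero_le _)
    | succ i ih =>
      obtain h | h := ih
      swap
      · exact .inr fun n => (h n).trans (mono (by omega))
      by_cases h' : Vs x (W (B + i + 1)) ≤ Vs x (W (B + i))
      · refine .inr fun n => (mono (Nat.le_add_left n (B + i))).trans (le_trans ?_ (mono (Nat.le_succ _)))
        induction n with
        | zero => exact le_rfl
        | succ n ih => exact (st _ (by omega) h' n).trans ih
      · have := fd_Vs x (W (B + i + 1))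
        exact .inl (h.trans_lt (Submodule.finrank_lt_finrank_of_lt (lt_of_le_not_ge (mono (Nat.le_succ _)) h')))
  exact (key r).elim id fun h => hr.trans (rk_mono x (h j₀))

theorem isAlgebraic_of_red {x : Fin d → L} (hW : Fil W) {B : ℕ} (hR : Red W (Tx x) B) {j : ℕ} {w : L}
    (hw : w ∈ W j) : IsAlgebraic (L0 x) w := by
  have := hW.fd B
  have := fd_Vs x (W B)
  exact (isIntegral_of_smul_mem_submodule (Vs x (W B)) ((Submodule.ne_bot_iff _).2
    ⟨1, Submodule.subset_span (hW.one_mem B), one_ne_zero⟩) (Submodule.FG.of_finite) w fun v hv =>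
    Vs_le_of_red hW hR _ (mul_mem_Vs x hW hw hv)).isAlgebraic

end Crest.Agent.R271.T2
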