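import Crest.Agent.R271.T2.NN
import Crest.Agent.R271.T2.Rank
import Crest.Agent.R271.T2.Lim

/-! # Row 271, block T2: the Hilbert function of a filtration of a field -/

set_option autoImplicit false

open Set Module MvPolynomial Filter Topology

noncomputable section

namespace Crest.Agent.R271.T2

variable {L : Type} [Field L] [Algebra ℂ L] {W : ℕ → Submodule ℂ L}

theorem hf_abs (hW : Fil W) {N B : ℕ} {t : Fin N → L} (hR : Red W (Tx t) B)
    (hL : ∀ f : L, ∃ j, ∃ u ∈ W j, ∃ v ∈ W j, f = u / v) :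
    ∃ d ρ : ℕ, Algebra.trdeg ℂ L = d ∧ 0 < ρ ∧
      Tendsto (fun j : ℕ => (finrank ℂ (W j) : ℝ) / (j : ℝ) ^ d) atTop (𝓝 (ρ / d.factorial)) ∧
      ∀ r, r ≤ ρ → ∀ m j, B + r + m ≤ j → r * (m + d).choose d ≤ finrank ℂ (W j) := by
  obtain ⟨d, x, B', hx, hR'⟩ := noether hW hR
  have hfd := hW.fd
  have hP : ∀ m j, Pm x m * W j ≤ W (j + m) := fun m j => by
    rw [← Tx_pow, add_comm]
    exact (mul_le_mul' (hW.pow_le hR'.1 m) le_rfl).trans (hW.mul_le m j)
  refine ⟨d, rk x (W B'), ?_, rk_pos x (hW.one_mem B'), ?_, fun r hr m j hj => ?_⟩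
  · have halg : Algebra.IsAlgebraic (L0 x) L := ⟨fun f => by
      obtain ⟨j, u, hu, v, hv, rfl⟩ := hL f
      rw [div_eq_mul_inv]
      exact (isAlgebraic_of_red hW hR' hu).mul (isAlgebraic_of_red hW hR' hv).inv⟩
    have hb : IsTranscendenceBasis ℂ x :=
      hx.isTranscendenceBasis_iff_isAlgebraic.2 (IntermediateField.isAlgebraic_adjoin_iff_top.1 halg)
    rw [← hb.cardinalMk_eq_trdeg]
    simp
  · obtain ⟨e, he⟩ := upper x (W B')
    refine tendsto_of_sandwich (B := B') (e := e) (fun m => lower hx _ (hP m B')) fun m => he m _ ?_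
    rw [← Tx_pow]
    exact hR'.le_pow' hW (one_mem_Tx x) m
  · exact (Nat.mul_le_mul_right _ (growth x hW hR hr)).trans (lower hx _ ((hP m _).trans (hW.mono hj)))

end Crest.Agent.R271.T2
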