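import Crest.Agent.R271.T2.Poly

/-! # Row 271, block T2: derivations

`exists_derivation`: adapt `Crest/Agent/R33/RigD.lean` (`K` is formally smooth over `MvPolynomial (Fin n) ℂ`; lift the identity to the
dual numbers).  `der_mem`: `δ` preserves `S = adjoin (range z)`; `δ (aeval U Q) - aeval U (derivative Q) * δ U ∈ A` for every
`Q : Polynomial S`, so `δ U ∈ A` (`Q = minpoly`); `δ g⁻¹ = -g⁻¹^2 * δ g`; `Algebra.adjoin_induction`.
`der_filt`: call `X` stable if `δ X ⊆ X * F e₂`; this passes to products and powers, `span {μ}` and `Tx z` are stable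
(`δ μ = μ * (υ * δ μ)`, `δ (z i) ∈ ℂ · 1`); `N` and `δ N` lie in some `F e₁`. -/

set_option autoImplicit false

open Set

noncomputable section

namespace Crest.Agent.R271.T2

theorem formallySmooth_of_charZero (K L : Type) [Field K] [Field L] [Algebra K L] [CharZero K] :
    Algebra.FormallySmooth K L := by
  obtain ⟨s, hs⟩ := exists_isTranscendenceBasis K L
  have := hs.isAlgebraic_field
  exact .of_algebraicIndependent_of_isSeparable hs.1

/-- dual numbers (a type synonym without the algebra instances) -/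
def DualN (F : Type) [Field F] : Type := TrivSqZeroExt F F

instance instDualN (F : Type) [Field F] : CommRing (DualN F) := inferInstanceAs (CommRing (TrivSqZeroExt F F))

/-- the projection to the first coordinate -/
def fstN (F : Type) [Field F] : DualN F →+* F := (TrivSqZeroExt.fstHom F F F).toRingHom

/-- the inclusion -/
def inlN (F : Type) [Field F] : F →+* DualN F := TrivSqZeroExt.inlHom F F

theorem exists_der_of_sec {K : Type} [Field K] [Algebra ℂ K] (σ : K →+* DualN K) (hσ : ∀ x, fstN K (σ x) = x)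
    (hc : ∀ c : ℂ, σ (algebraMap ℂ K c) = inlN K (algebraMap ℂ K c)) :
    ∃ δ : Derivation ℂ K K, ∀ x, δ x = TrivSqZeroExt.snd (σ x) := by
  have hmul : ∀ a b, TrivSqZeroExt.snd (σ (a * b)) =
      a • TrivSqZeroExt.snd (σ b) + b • TrivSqZeroExt.snd (σ a) := by
    intro a b
    have ha : TrivSqZeroExt.fst (σ a) = a := hσ a
    have hb : TrivSqZeroExt.fst (σ b) = b := hσ b
    rw [map_mul]
    refine (TrivSqZeroExt.snd_mul (σ a) (σ b)).trans ?_
    rw [ha, hb, op_smul_eq_smul]
  refine ⟨Derivation.mk'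
    { toFun := fun x => TrivSqZeroExt.snd (σ x)
      map_add' := fun x y => by rw [map_add]; rfl
      map_smul' := fun c x => ?_ } hmul, fun x => rfl⟩
  have h0 : TrivSqZeroExt.snd (σ (algebraMap ℂ K c)) = 0 := by rw [hc]; rfl
  rw [Algebra.smul_def, hmul, h0, smul_zero, add_zero, RingHom.id_apply, Algebra.smul_def c, smul_eq_mul]

theorem exists_derivation {K : Type} [Field K] [Algebra ℂ K] {n : ℕ} {z : Fin n → K}
    (hz : AlgebraicIndependent ℂ z) (v : Fin n → K) : ∃ δ : Derivation ℂ K K, ∀ i, δ (z i) = v i := by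
  have : CharZero K := charZero_of_injective_algebraMap (algebraMap ℂ K).injective
  let φ : MvPolynomial (Fin n) ℂ →+* K := MvPolynomial.eval₂Hom (algebraMap ℂ K) z
  have hφ : Function.Injective φ := hz
  let z' : Fin n → DualN K := fun i => (TrivSqZeroExt.inl (z i) + TrivSqZeroExt.inr (v i) : TrivSqZeroExt K K)
  let ψ : MvPolynomial (Fin n) ℂ →+* DualN K := MvPolynomial.eval₂Hom ((inlN K).comp (algebraMap ℂ K)) z'
  let _ : Algebra (MvPolynomial (Fin n) ℂ) K := φ.toAlgebra
  let _ : Algebra (MvPolynomial (Fin n) ℂ) (DualN K) := ψ.toAlgebra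
  have : FaithfulSMul (MvPolynomial (Fin n) ℂ) K := (faithfulSMul_iff_algebraMap_injective _ _).mpr hφ
  let _ : Algebra (FractionRing (MvPolynomial (Fin n) ℂ)) K := FractionRing.liftAlgebra _ _
  have : IsScalarTower (MvPolynomial (Fin n) ℂ) (FractionRing (MvPolynomial (Fin n) ℂ)) K :=
    FractionRing.isScalarTower_liftAlgebra _ _
  have : CharZero (FractionRing (MvPolynomial (Fin n) ℂ)) :=
    RingHom.charZero (algebraMap (FractionRing (MvPolynomial (Fin n) ℂ)) K)
  have : Algebra.FormallySmooth (MvPolynomial (Fin n) ℂ) (FractionRing (MvPolynomial (Fin n) ℂ)) :=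
    .of_isLocalization (nonZeroDivisors _)
  have : Algebra.FormallySmooth (FractionRing (MvPolynomial (Fin n) ℂ)) K := formallySmooth_of_charZero _ _
  have : Algebra.FormallySmooth (MvPolynomial (Fin n) ℂ) K := .comp _ (FractionRing (MvPolynomial (Fin n) ℂ)) _
  have hz' : ∀ i, fstN K (z' i) = z i := fun i => by
    change TrivSqZeroExt.fst (TrivSqZeroExt.inl (z i) + TrivSqZeroExt.inr (v i) : TrivSqZeroExt K K) = z i
    simp
  have hcomp : (fstN K).comp ψ = φ := by
    refine MvPolynomial.ringHom_ext (fun c => ?_) fun i => ?_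
    · simp only [φ, ψ, RingHom.comp_apply, MvPolynomial.eval₂Hom_C]
      rfl
    · simp only [φ, ψ, RingHom.comp_apply, MvPolynomial.eval₂Hom_X', hz']
  let g : DualN K →ₐ[MvPolynomial (Fin n) ℂ] K :=
    { fstN K with commutes' := fun p => RingHom.congr_fun hcomp p }
  have hg : Function.Surjective g := fun x => ⟨inlN K x, rfl⟩
  have hg' : IsNilpotent (RingHom.ker (g : DualN K →+* K)) := ⟨2, TrivSqZeroExt.kerIdeal_sq K K⟩
  let σ := Algebra.FormallySmooth.liftOfSurjective (AlgHom.id (MvPolynomial (Fin n) ℂ) K) g hg hg'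
  have hσ : ∀ x, fstN K ((σ : K →+* DualN K) x) = x := fun x =>
    Algebra.FormallySmooth.liftOfSurjective_apply (AlgHom.id (MvPolynomial (Fin n) ℂ) K) g hg hg' x
  have hp : ∀ p, σ (φ p) = ψ p := fun p => σ.commutes p
  obtain ⟨δ, hδ⟩ := exists_der_of_sec (σ : K →+* DualN K) hσ fun c => by
    have h1 := hp (MvPolynomial.C c)
    simp only [φ, ψ, MvPolynomial.eval₂Hom_C] at h1
    exact h1
  refine ⟨δ, fun i => ?_⟩
  have h1 := hp (MvPolynomial.X i)
  simp only [φ, ψ, MvPolynomial.eval₂Hom_X'] at h1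
  rw [hδ]
  change TrivSqZeroExt.snd (σ (z i)) = v i
  rw [h1]
  change TrivSqZeroExt.snd (TrivSqZeroExt.inl (z i) + TrivSqZeroExt.inr (v i) : TrivSqZeroExt K K) = v i
  simp

theorem der_adjoin {K : Type} [Field K] [Algebra ℂ K] {A : Subalgebra ℂ K} (δ : Derivation ℂ K K) {s : Set K}
    (hs : s ⊆ A) (h : ∀ x ∈ s, δ x ∈ A) {a : K} (ha : a ∈ Algebra.adjoin ℂ s) : δ a ∈ A := by
  have hle : Algebra.adjoin ℂ s ≤ A := Algebra.adjoin_le hs
  induction ha using Algebra.adjoin_induction with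
  | mem x hx => exact h x hx
  | algebraMap c => rw [δ.map_algebraMap]; exact A.zero_mem
  | add x y _ _ hx hy => rw [map_add]; exact A.add_mem hx hy
  | mul x y hx hy hx' hy' =>
    rw [δ.leibniz, smul_eq_mul, smul_eq_mul]
    exact A.add_mem (A.mul_mem (hle hx) hy') (A.mul_mem (hle hy) hx')

theorem der_mem {K : Type} [Field K] [Algebra ℂ K] {n : ℕ} {z : Fin n → K} {U g : K} {A : Subalgebra ℂ K}
    (hg : g ∈ Algebra.adjoin ℂ (insert U (range z)))
    (hA : A = Algebra.adjoin ℂ (insert g⁻¹ (insert U (range z))))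
    (hs : ∃ v ∈ A, v * Polynomial.aeval U (Polynomial.derivative (minpoly (Algebra.adjoin ℂ (range z)) U)) = 1)
    (δ : Derivation ℂ K K) (hδ : ∀ i, δ (z i) = 0 ∨ δ (z i) = 1) {a : K} (ha : a ∈ A) : δ a ∈ A := by
  have hsub : insert g⁻¹ (insert U (range z)) ⊆ A := by rw [hA]; exact Algebra.subset_adjoin
  have hgA : g⁻¹ ∈ A := hsub (mem_insert _ _)
  have hUz : insert U (range z) ⊆ A := (subset_insert _ _).trans hsub
  have hU : U ∈ A := hUz (mem_insert _ _)
  have hzA : range z ⊆ A := (subset_insert _ _).trans hUz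
  have hδz : ∀ x ∈ range z, δ x ∈ A := by
    rintro _ ⟨i, rfl⟩
    rcases hδ i with h | h <;> rw [h]
    exacts [A.zero_mem, A.one_mem]
  have key : ∀ Q : Polynomial (Algebra.adjoin ℂ (range z)),
      δ (Polynomial.aeval U Q) - Polynomial.aeval U (Polynomial.derivative Q) * δ U ∈ A := by
    intro Q
    induction Q using Polynomial.induction_on' with
    | add p q hp hq =>
      have := A.add_mem hp hq
      convert this using 1
      simp only [map_add]
      ring
    | monomial m c =>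
      have := A.mul_mem (A.pow_mem hU m) (der_adjoin δ hzA hδz c.2)
      convert this using 1
      rw [Polynomial.derivative_monomial, Polynomial.aeval_monomial, Polynomial.aeval_monomial, δ.leibniz,
        δ.leibniz_pow]
      simp only [smul_eq_mul, nsmul_eq_mul, map_mul, map_natCast, Subalgebra.algebraMap_def, Algebra.algebraMap_self,
        RingHom.id_apply]
      ring
  have hδU : δ U ∈ A := by
    obtain ⟨v, hv, h1⟩ := hs
    have h2 := key (minpoly (Algebra.adjoin ℂ (range z)) U)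
    rw [minpoly.aeval, map_zero, zero_sub] at h2
    have h3 := A.neg_mem (A.mul_mem hv h2)
    rwa [mul_neg, neg_neg, ← mul_assoc, h1, one_mul] at h3
  have hδUz : ∀ x ∈ insert U (range z), δ x ∈ A := by
    rintro x (rfl | hx)
    exacts [hδU, hδz x hx]
  refine der_adjoin δ hsub ?_ (hA ▸ ha)
  rintro x (rfl | hx)
  · rw [δ.leibniz_inv, smul_eq_mul]
    exact A.mul_mem (A.neg_mem (A.pow_mem hgA 2)) (der_adjoin δ hUz hδUz hg)
  · exact hδUz x hx

theorem exists_restrict {K : Type} [Field K] [Algebra ℂ K] {A : Subalgebra ℂ K} (δ : Derivation ℂ K K)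
    (h : ∀ a ∈ A, δ a ∈ A) : ∃ δ' : Derivation ℂ A A, ∀ a : A, (δ' a : K) = δ a := by
  refine ⟨Derivation.mk'
    { toFun := fun a => ⟨δ a, h a a.2⟩
      map_add' := fun a b => Subtype.ext (map_add δ _ _)
      map_smul' := fun c a => Subtype.ext (δ.map_smul c _) } fun a b => Subtype.ext ?_, fun a => rfl⟩
  exact δ.leibniz a b

theorem der_stable_mul {D : Type} [CommRing D] [Algebra ℂ D] (δ : Derivation ℂ D D)
    {X Y E : Submodule ℂ D} (hX : ∀ a ∈ X, δ a ∈ X * E) (hY : ∀ a ∈ Y, δ a ∈ Y * E) :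
    ∀ a ∈ X * Y, δ a ∈ X * Y * E := by
  intro a ha
  refine Submodule.mul_induction_on ha (fun x hx y hy => ?_) fun x y hx hy => ?_
  · rw [Derivation.leibniz, smul_eq_mul, smul_eq_mul]
    refine add_mem ?_ ?_
    · rw [mul_assoc]
      exact Submodule.mul_mem_mul hx (hY y hy)
    · rw [mul_comm X Y, mul_assoc]
      exact Submodule.mul_mem_mul hy (hX x hx)
  · rw [map_add]
    exact add_mem hx hy

theorem der_stable_pow {D : Type} [CommRing D] [Algebra ℂ D] (δ : Derivation ℂ D D)
    {X E : Submodule ℂ D} (hX : ∀ a ∈ X, δ a ∈ X * E) (m : ℕ) : ∀ a ∈ X ^ m, δ a ∈ X ^ m * E := by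
  induction m with
  | zero =>
    intro a ha
    rw [pow_zero] at ha
    obtain ⟨c, rfl⟩ := Submodule.mem_one.1 ha
    rw [Derivation.map_algebraMap]
    exact zero_mem _
  | succ m ih => rw [pow_succ]; exact der_stable_mul δ ih hX

theorem exists_le_fil {D : Type} [CommRing D] [Algebra ℂ D] {F : ℕ → Submodule ℂ D} (hF : Fil F)
    (hexh : ∀ a, ∃ j, a ∈ F j) (N : Submodule ℂ D) [FiniteDimensional ℂ N] : ∃ e, N ≤ F e := by
  obtain ⟨s, rfl⟩ := (Submodule.fg_iff_finiteDimensional N).2 inferInstance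
  choose j hj using hexh
  exact ⟨s.sup j, Submodule.span_le.2 fun a ha => hF.mono (Finset.le_sup (f := j) ha) (hj a)⟩

theorem der_filt {D : Type} [CommRing D] [Algebra ℂ D] {F : ℕ → Submodule ℂ D} (hF : Fil F)
    (hexh : ∀ a, ∃ j, a ∈ F j) {n e : ℕ} {z : Fin n → D} {υ μ : D} (hμ : υ * μ = 1) {N : Submodule ℂ D}
    [FiniteDimensional ℂ N] (h1 : Submodule.span ℂ {μ} * Tx z ^ e ≤ F 1)
    (h2 : ∀ j, F j ≤ (Submodule.span ℂ {μ} * Tx z ^ e) ^ j * N)
    (δ : Derivation ℂ D D) (hδ : ∀ i, δ (z i) = 0 ∨ δ (z i) = 1) :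
    ∃ e' : ℕ, ∀ j, ∀ a ∈ F j, δ a ∈ F (j + e') := by
  obtain ⟨e₂, he₂⟩ := hexh (υ * δ μ)
  obtain ⟨e₁, he₁⟩ := exists_le_fil hF hexh (N ⊔ N.map (δ : D →ₗ[ℂ] D))
  have hμs : ∀ a ∈ Submodule.span ℂ {μ}, δ a ∈ Submodule.span ℂ {μ} * F e₂ := by
    intro a ha
    obtain ⟨c, rfl⟩ := Submodule.mem_span_singleton.1 ha
    rw [Derivation.map_smul]
    refine Submodule.smul_mem _ _ ?_
    have := Submodule.mul_mem_mul (Submodule.mem_span_singleton_self (R := ℂ) μ) he₂
    rwa [← mul_assoc, mul_comm μ υ, hμ, one_mul] at this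
  have hT : ∀ a ∈ Tx z, δ a ∈ Tx z * F e₂ := by
    intro a ha
    induction ha using Submodule.span_induction with
    | mem g hg =>
      rcases hg with rfl | ⟨i, rfl⟩
      · rw [Derivation.map_one_eq_zero]
        exact zero_mem _
      · rcases hδ i with h | h <;> rw [h]
        · exact zero_mem _
        · simpa using Submodule.mul_mem_mul (one_mem_Tx z) (hF.one_mem e₂)
    | zero => rw [map_zero]; exact zero_mem _
    | add a b _ _ ha hb => rw [map_add]; exact add_mem ha hb
    | smul c a _ ha => rw [Derivation.map_smul]; exact Submodule.smul_mem _ _ ha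
  refine ⟨e₂ + e₁, fun j a ha => ?_⟩
  have hX := der_stable_pow δ (der_stable_mul δ hμs (der_stable_pow δ hT e)) j
  have hle := hF.pow_le h1 j
  refine Submodule.mul_induction_on (C := fun a => δ a ∈ F (j + (e₂ + e₁))) (h2 j ha)
    (fun x hx y hy => ?_) fun x y hx hy => ?_
  · rw [Derivation.leibniz, smul_eq_mul, smul_eq_mul]
    refine add_mem (hF.mono (by omega) (hF.mul_mem (hle hx)
      (he₁ (Submodule.mem_sup_right ⟨y, hy, rfl⟩)))) ?_
    rw [mul_comm, ← add_assoc]
    exact hF.mul_mem (hF.mul_le _ _ (mul_le_mul' hle le_rfl (hX x hx)))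
      (he₁ (Submodule.mem_sup_left hy))
  · rw [map_add]
    exact add_mem hx hy

end Crest.Agent.R271.T2
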