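import Mathlib

/-! # Row 271, block T2: transcendence degree of quotients

`exists_coord`: `exists_isTranscendenceBasis_subset` for `s = range ζ`, the basis is finite, choose preimages.
`trdeg_lt`: lift a transcendence basis `y` of `D'` to `D` (`AlgebraicIndependent.of_map`); `a` is transcendental over
`adjoin (range lift)` (otherwise it divides a non-zero element `aeval lift P`, `IsAlgebraic.exists_nonzero_dvd`, whose image
`aeval y P` vanishes); `AlgebraicIndependent.option_iff_transcendental`, `cardinalMk_le_trdeg`. -/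

set_option autoImplicit false

open Set

noncomputable section

namespace Crest.Agent.R271.T2

variable {D D' : Type} [CommRing D] [IsDomain D] [Algebra ℂ D] [CommRing D'] [IsDomain D'] [Algebra ℂ D']

theorem toNat_trdeg {d : ℕ} {x : Fin d → D} (hx : IsTranscendenceBasis ℂ x) :
    (Algebra.trdeg ℂ D).toNat = d := by
  rw [← hx.cardinalMk_eq_trdeg]
  simp
theorem exists_coord {n : ℕ} (ζ : Fin n → D) (h : ∀ a : D, IsAlgebraic (Algebra.adjoin ℂ (range ζ)) a) :
    ∃ ι : Fin (Algebra.trdeg ℂ D).toNat → Fin n, Function.Injective ι ∧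
      IsTranscendenceBasis ℂ fun i => ζ (ι i) := by
  classical
  have : Algebra.IsAlgebraic (Algebra.adjoin ℂ (range ζ)) D := ⟨h⟩
  obtain ⟨t, ht, hb⟩ := exists_isTranscendenceBasis_subset (R := ℂ) (range ζ)
  have hfin : Finite t := ((finite_range ζ).subset ht).to_subtype
  have hcard : Nat.card t = (Algebra.trdeg ℂ D).toNat := by
    rw [← hb.cardinalMk_eq_trdeg]; rfl
  let e : Fin (Algebra.trdeg ℂ D).toNat ≃ t := (Finite.equivFinOfCardEq hcard).symm
  choose f hf using fun a : t => ht a.2
  refine ⟨fun i => f (e i), fun i j hij => ?_, ?_⟩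
  · apply e.injective
    apply Subtype.ext
    rw [← hf, ← hf]
    exact congrArg ζ hij
  · refine (isTranscendenceBasis_equiv' e ?_).2 hb
    ext i
    exact (hf _).symm
theorem trdeg_lt {d d' : ℕ} {x : Fin d → D} {y : Fin d' → D'} (hx : IsTranscendenceBasis ℂ x)
    (hy : IsTranscendenceBasis ℂ y) (φ : D →ₐ[ℂ] D') (hφ : Function.Surjective φ) {a : D} (ha : a ≠ 0)
    (ha' : φ a = 0) : d' < d := by
  choose z hz using fun i => hφ (y i)
  have hyz : φ ∘ z = y := funext hz
  have h1 : AlgebraicIndependent ℂ z := AlgebraicIndependent.of_comp φ (by rw [hyz]; exact hy.1)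
  have h2 : Transcendental (Algebra.adjoin ℂ (range z)) a := by
    intro h
    obtain ⟨r, hr, c, hc⟩ := h.exists_nonzero_dvd (mem_nonZeroDivisors_of_ne_zero ha)
    obtain ⟨P, rfl⟩ := h1.aevalEquiv.surjective r
    rw [h1.algebraMap_aevalEquiv] at hc
    have h3 : MvPolynomial.aeval y P = 0 := by
      have h4 := congrArg φ hc
      rw [map_mul, ha', zero_mul, ← AlgHom.comp_apply, MvPolynomial.comp_aeval] at h4
      rw [← hyz]
      exact h4
    rw [hy.1.eq_zero_of_aeval_eq_zero P h3, map_zero] at hr
    exact hr rfl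
  have h3 := ((h1.option_iff_transcendental a).2 h2).cardinalMk_le_trdeg
  rw [← hx.cardinalMk_eq_trdeg] at h3
  simp only [Cardinal.mk_fintype, Fintype.card_option, Fintype.card_fin, Nat.cast_le] at h3
  omega
theorem isField_of_basis {d : ℕ} {x : Fin d → D} (hx : IsTranscendenceBasis ℂ x) (hd : d = 0) : IsField D := by
  subst hd
  have : Algebra.IsAlgebraic ℂ D := hx.isEmpty_iff_isAlgebraic.1 inferInstance
  exact isField_of_isIntegral_of_isField' (R := ℂ) (Field.toIsField ℂ)
theorem trdeg_fractionRing : Algebra.trdeg ℂ (FractionRing D) = Algebra.trdeg ℂ D := by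
  have : Algebra.IsAlgebraic D (FractionRing D) := IsLocalization.isAlgebraic _ (nonZeroDivisors D)
  rw [← trdeg_add_eq ℂ D (A := FractionRing D), trdeg_eq_zero (R := D), add_zero]
end Crest.Agent.R271.T2
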