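import Crest.Agent.R271.T2.Abs
import Crest.Agent.R271.T2.Tr
import Crest.Agent.R271.T2.Der

/-! # Row 271, block T2: the filtrations of `A` attached to the two finite projections -/

set_option autoImplicit false

open Set Module Filter Topology

noncomputable section

namespace Crest.Agent.R271.T2

variable {n : ℕ} {K : Type} [Field K] [Algebra ℂ K] {g : GR n K}

/-- `R (j κ) / u ^ j` -/
def Fu (g : GR n K) (u : K) (κ j : ℕ) : Submodule ℂ g.A :=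
  (g.R (j * κ)).comap (LinearMap.mulRight ℂ (u ^ j) ∘ₗ g.A.val.toLinearMap)

theorem mem_Fu {u : K} {κ j : ℕ} {f : g.A} : f ∈ Fu g u κ j ↔ (f : K) * u ^ j ∈ g.R (j * κ) := Iff.rfl

theorem F_eq (g : GR n K) : g.F = Fu g g.τ (g.c * g.k * g.k') := rfl

/-- dimension of `V(𝔭)` -/
def dm (g : GR n K) (𝔭 : Ideal g.A) : ℕ := (Algebra.trdeg ℂ (g.A ⧸ 𝔭)).toNat

/-- a finite projection -/
structure Ch (g : GR n K) (κ e : ℕ) {N : ℕ} (t : Fin (N + 1) → K) : Prop where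
  κ_pos : 0 < κ
  e_pos : 0 < e
  eq : e * κ = g.c * g.k * g.k'
  mem : ∀ i, t i ∈ g.R κ
  fin : FinOver g.R κ t
  ne : t 0 ≠ 0
  unit : g.τ / t 0 ^ e ∈ g.A

theorem ch1 (g : GR n K) : Ch g g.k (g.c * g.k') g.t := by
  exact ⟨g.k_pos, Nat.mul_pos g.c_pos g.k'_pos, by ring, g.t_mem, g.fin, g.t0_ne, g.unit⟩

theorem ch2 (g : GR n K) : Ch g g.k' (g.c * g.k) g.t' := by
  exact ⟨g.k'_pos, Nat.mul_pos g.c_pos g.k_pos, rfl, g.t'_mem, g.fin', g.t'0_ne, g.unit'⟩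

theorem pow_mem_R {u : K} {κ : ℕ} (hu : u ∈ g.R κ) (j : ℕ) : u ^ j ∈ g.R (j * κ) := by
  induction j with
  | zero => simpa using g.one_mem
  | succ j ih => rw [pow_succ, Nat.succ_mul]; exact g.mul_mem _ _ _ ih _ hu

theorem fd_R (g : GR n K) (l : ℕ) : FiniteDimensional ℂ (g.R l) := by
  obtain ⟨q, r, dg, -, h⟩ := g.fin
  have hfin : {s | ∃ (i : Fin q) (e : Fin (n + 1) → ℕ),
      g.k * ∑ j, e j + dg i = l ∧ s = (∏ j, g.t j ^ e j) * r i}.Finite := by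
    refine ((finite_univ.prod (Finite.pi' fun _ : Fin (n + 1) => finite_Iic l)).image
      fun p : Fin q × (Fin (n + 1) → ℕ) => (∏ j, g.t j ^ p.2 j) * r p.1).subset ?_
    rintro _ ⟨i, e, he, rfl⟩
    refine ⟨(i, e), ⟨mem_univ _, fun j => ?_⟩, rfl⟩
    have h1 : e j ≤ ∑ j, e j := Finset.single_le_sum (fun _ _ => Nat.zero_le _) (Finset.mem_univ j)
    have h2 : ∑ j, e j ≤ g.k * ∑ j, e j := Nat.le_mul_of_pos_left _ g.k_pos
    show e j ≤ l
    omega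
  have := FiniteDimensional.span_of_finite ℂ hfin
  exact Submodule.finiteDimensional_of_le (h l)

theorem fil_Fu {u : K} {κ : ℕ} (hu : u ∈ g.R κ) (h0 : u ≠ 0) : Fil (Fu g u κ) := by
  refine ⟨by simpa [mem_Fu] using g.one_mem, by simpa [mem_Fu] using hu, fun i j => ?_, fun j => ?_⟩
  · refine Submodule.mul_le.2 fun a ha b hb => ?_
    have := g.mul_mem _ _ _ (mem_Fu.1 ha) _ (mem_Fu.1 hb)
    rw [mem_Fu, add_mul, pow_add]
    convert this using 1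
    push_cast
    ring
  · have := fd_R g (j * κ)
    refine FiniteDimensional.of_injective (V₂ := g.R (j * κ))
      ((LinearMap.mulRight ℂ (u ^ j) ∘ₗ g.A.val.toLinearMap).restrict fun x hx => hx) fun a b hab => ?_
    have h1 : ((a : g.A) : K) * u ^ j = ((b : g.A) : K) * u ^ j := congrArg Subtype.val hab
    exact Subtype.ext (Subtype.ext (mul_right_cancel₀ (pow_ne_zero j h0) h1))

theorem fil_F (g : GR n K) : Fil g.F := fil_Fu g.τ_mem g.τ_ne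

theorem exh_F (g : GR n K) (a : g.A) : ∃ j, a ∈ g.F j := (g.mem_A a).1 a.2

namespace Ch

variable {κ e N : ℕ} {t : Fin (N + 1) → K}

theorem div_mem (h : Ch g κ e t) {j : ℕ} {s : K} (hs : s ∈ g.R (j * κ)) : s / t 0 ^ j ∈ g.A := by
  obtain ⟨e', rfl⟩ : ∃ e', e = e' + 1 := ⟨e - 1, by have := h.e_pos; omega⟩
  have h0 := h.ne
  have hτ := g.τ_ne
  have h1 : s * t 0 ^ (j * e') / g.τ ^ j ∈ g.A := by
    refine (g.mem_A _).2 ⟨j, ?_⟩
    rw [div_mul_cancel₀ _ (pow_ne_zero j hτ), ← h.eq, show j * ((e' + 1) * κ) = j * κ + j * e' * κ by ring]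
    exact g.mul_mem _ _ _ hs _ (pow_mem_R (h.mem 0) _)
  convert g.A.mul_mem h1 (g.A.pow_mem h.unit j) using 1
  rw [div_pow, ← pow_mul, show (e' + 1) * j = j * e' + j by ring, pow_add]
  field_simp

/-- affine coordinates -/
def z (h : Ch g κ e t) (i : Fin N) : g.A :=
  ⟨t i.succ / t 0, by simpa using h.div_mem (j := 1) (by simpa using h.mem i.succ)⟩

/-- the unit `τ / t₀ ^ e` -/
def υ (h : Ch g κ e t) : g.A := ⟨g.τ / t 0 ^ e, h.unit⟩

theorem exists_inv (h : Ch g κ e t) : ∃ μ : g.A, h.υ * μ = 1 := by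
  have h0 := h.ne
  have hτ := g.τ_ne
  refine ⟨⟨t 0 ^ e / g.τ, (g.mem_A _).2 ⟨1, ?_⟩⟩, Subtype.ext ?_⟩
  · rw [pow_one, div_mul_cancel₀ _ hτ, one_mul, ← h.eq]
    exact pow_mem_R (h.mem 0) e
  · show g.τ / t 0 ^ e * (t 0 ^ e / g.τ) = 1
    field_simp

theorem mem_F (h : Ch g κ e t) {j : ℕ} {f : g.A} : f ∈ g.F j ↔ f * h.υ ^ j ∈ Fu g (t 0) κ (j * e) := by
  have h0 := h.ne
  have : ((f * h.υ ^ j : g.A) : K) * t 0 ^ (j * e) = f * g.τ ^ j := by
    push_cast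
    show (f : K) * (g.τ / t 0 ^ e) ^ j * t 0 ^ (j * e) = _
    rw [div_pow, ← pow_mul, mul_comm e j]
    field_simp
  rw [F_eq, mem_Fu, mem_Fu, this, mul_assoc j e κ, h.eq]

theorem prod_mem (h : Ch g κ e t) (a : Fin (N + 1) → ℕ) (S : Finset (Fin (N + 1))) :
    ∏ l ∈ S, t l ^ a l ∈ g.R ((∑ l ∈ S, a l) * κ) := by
  classical
  induction S using Finset.induction_on with
  | empty => simpa using g.one_mem
  | insert l S hl ih =>
    rw [Finset.prod_insert hl, Finset.sum_insert hl, add_mul]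
    exact g.mul_mem _ _ _ (pow_mem_R (h.mem l) _) _ ih

theorem red (h : Ch g κ e t) : ∃ B, Red (Fu g (t 0) κ) (Tx h.z) B := by
  classical
  obtain ⟨q, r, dg, hr, hfin⟩ := h.fin
  have h0 := h.ne
  refine ⟨∑ i, dg i, ?_, fun j hj f hf => ?_⟩
  · rw [Tx, Submodule.span_le]
    rintro _ (rfl | ⟨i, rfl⟩)
    · exact (fil_Fu (h.mem 0) h0).one_one
    · show t i.succ / t 0 * t 0 ^ 1 ∈ g.R (1 * κ)
      rw [pow_one, one_mul, div_mul_cancel₀ _ h0]
      exact h.mem _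
  have key : ∀ s ∈ Submodule.span ℂ {s | ∃ (i : Fin q) (a : Fin (N + 1) → ℕ),
      κ * ∑ l, a l + dg i = (j + 1) * κ ∧ s = (∏ l, t l ^ a l) * r i},
      ∃ b ∈ Tx h.z * Fu g (t 0) κ j, (b : K) * t 0 ^ (j + 1) = s := by
    intro s hs
    induction hs using Submodule.span_induction with
    | zero => exact ⟨0, zero_mem _, by simp⟩
    | add s s' _ _ ih ih' =>
      obtain ⟨b, hb, rfl⟩ := ih
      obtain ⟨b', hb', rfl⟩ := ih'
      exact ⟨b + b', add_mem hb hb', by push_cast; ring⟩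
    | smul c s _ ih =>
      obtain ⟨b, hb, rfl⟩ := ih
      exact ⟨c • b, Submodule.smul_mem _ c hb, by simp⟩
    | mem s hs =>
      obtain ⟨i, a, ha, rfl⟩ := hs
      have h1 : dg i ≤ ∑ i, dg i := Finset.single_le_sum (fun _ _ => Nat.zero_le _) (Finset.mem_univ i)
      have h2 : j ≤ j * κ := Nat.le_mul_of_pos_right _ h.κ_pos
      have h3 := h.κ_pos
      obtain ⟨l, hl⟩ : ∃ l, a l ≠ 0 := by
        by_contra hne
        push Not at hne
        simp only [hne, Finset.sum_const_zero, mul_zero, zero_add, add_mul, one_mul] at ha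
        omega
      obtain ⟨m, hm⟩ := Nat.exists_eq_succ_of_ne_zero hl
      rw [← Finset.add_sum_erase _ _ (Finset.mem_univ l), hm] at ha
      rw [← Finset.mul_prod_erase _ _ (Finset.mem_univ l), hm]
      have hs' : t l ^ m * (∏ l' ∈ Finset.univ.erase l, t l' ^ a l') * r i ∈ g.R (j * κ) := by
        have := g.mul_mem _ _ _ (g.mul_mem _ _ _ (pow_mem_R (h.mem l) m) _
          (h.prod_mem a (Finset.univ.erase l))) _ (hr i)
        convert this using 2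
        simp only [Nat.succ_eq_add_one] at ha
        nlinarith
      obtain ⟨y, hy, hy'⟩ : ∃ y ∈ Tx h.z, (y : K) = t l / t 0 := by
        refine Fin.cases ?_ (fun i => ⟨h.z i, mem_Tx _ i, rfl⟩) l
        exact ⟨1, one_mem_Tx _, by simp [h0]⟩
      refine ⟨y * ⟨_, h.div_mem hs'⟩, Submodule.mul_mem_mul hy ?_, ?_⟩
      · rw [mem_Fu, div_mul_cancel₀ _ (pow_ne_zero j h0)]
        exact hs'
      · push_cast
        rw [hy', pow_succ, pow_succ]
        field_simp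
  obtain ⟨b, hb, hbf⟩ := key _ (hfin _ (mem_Fu.1 hf))
  rwa [← Subtype.ext (mul_right_cancel₀ (pow_ne_zero _ h0) hbf)]

theorem hf_gen (h : Ch g κ e t) {B : ℕ} (hB : Red (Fu g (t 0) κ) (Tx h.z) B) {L : Type} [Field L] [Algebra ℂ L]
    (φ : g.A →ₐ[ℂ] L) (hL : ∀ f : L, ∃ a b, f = φ a / φ b) : ∃ d ρ : ℕ, Algebra.trdeg ℂ L = d ∧ 0 < ρ ∧
    Tendsto (fun j : ℕ => (finrank ℂ ((g.F j).map φ.toLinearMap) : ℝ) / (j : ℝ) ^ d) atTop
      (𝓝 (ρ / d.factorial * (e : ℝ) ^ d)) ∧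
    ∀ r, r ≤ ρ → ∀ m j, B + r + m ≤ j * e →
      r * (m + d).choose d ≤ finrank ℂ ((g.F j).map φ.toLinearMap) := by
  obtain ⟨μ, hμ⟩ := h.exists_inv
  have hυ : ∀ j, φ (h.υ ^ j) ≠ 0 := fun j => by
    rw [map_pow]
    exact pow_ne_zero _ (left_ne_zero_of_mul_eq_one (by rw [← map_mul, hμ, map_one]))
  have hW := (fil_Fu (h.mem 0) h.ne).map φ
  have hR := hB.map φ
  rw [map_Tx] at hR
  obtain ⟨d, ρ, hd, hρ, ht, hlow⟩ := hf_abs hW hR fun f => by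
    obtain ⟨a, b, rfl⟩ := hL f
    obtain ⟨i, hi⟩ := exh_F g a
    obtain ⟨j, hj⟩ := exh_F g b
    refine ⟨(i + j) * e, _, ⟨_, h.mem_F.1 ((fil_F g).mono (Nat.le_add_right i j) hi), rfl⟩, _,
      ⟨_, h.mem_F.1 ((fil_F g).mono (Nat.le_add_left j i) hj), rfl⟩, ?_⟩
    simp only [AlgHom.toLinearMap_apply, map_mul]
    exact (mul_div_mul_right _ _ (hυ _)).symm
  have hfr : ∀ j, finrank ℂ ((g.F j).map φ.toLinearMap) =
      finrank ℂ ((Fu g (t 0) κ (j * e)).map φ.toLinearMap) := by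
    intro j
    have hinj : Function.Injective (LinearMap.mulRight ℂ (φ (h.υ ^ j))) := mul_left_injective₀ (hυ j)
    have hmap : ((g.F j).map φ.toLinearMap).map (LinearMap.mulRight ℂ (φ (h.υ ^ j))) =
        (Fu g (t 0) κ (j * e)).map φ.toLinearMap := by
      ext w
      constructor
      · rintro ⟨_, ⟨a, ha, rfl⟩, rfl⟩
        exact ⟨_, h.mem_F.1 ha, map_mul φ _ _⟩
      · rintro ⟨a, ha, rfl⟩
        have e1 : a * μ ^ j * h.υ ^ j = a := by
          rw [mul_assoc, ← mul_pow, mul_comm μ, hμ, one_pow, mul_one]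
        refine ⟨_, ⟨a * μ ^ j, h.mem_F.2 (by rwa [e1]), rfl⟩, ?_⟩
        exact (map_mul φ _ _).symm.trans (congrArg φ e1)
    rw [(Submodule.equivMapOfInjective _ hinj _).finrank_eq, hmap]
  simp only [hfr]
  exact ⟨d, ρ, hd, hρ, tendsto_mul_index h.e_pos ht, fun r hr m j hj => hlow r hr m _ hj⟩

theorem hf_dom (h : Ch g κ e t) {B : ℕ} (hB : Red (Fu g (t 0) κ) (Tx h.z) B) {D : Type} [CommRing D] [IsDomain D]
    [Algebra ℂ D] (π : g.A →ₐ[ℂ] D) (hπ : Function.Surjective π) : ∃ d ρ : ℕ, Algebra.trdeg ℂ D = d ∧ 0 < ρ ∧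
    Tendsto (fun j : ℕ => (finrank ℂ ((g.F j).map π.toLinearMap) : ℝ) / (j : ℝ) ^ d) atTop
      (𝓝 (ρ / d.factorial * (e : ℝ) ^ d)) ∧
    ∀ r, r ≤ ρ → ∀ m j, B + r + m ≤ j * e →
      r * (m + d).choose d ≤ finrank ℂ ((g.F j).map π.toLinearMap) := by
  let ι : D →ₐ[ℂ] FractionRing D := IsScalarTower.toAlgHom ℂ _ _
  have hι : Function.Injective ι.toLinearMap := IsFractionRing.injective D _
  have hfr : ∀ j, finrank ℂ ((g.F j).map π.toLinearMap) = finrank ℂ ((g.F j).map (ι.comp π).toLinearMap) := by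
    intro j
    rw [(Submodule.equivMapOfInjective _ hι _).finrank_eq, ← Submodule.map_comp]
    rfl
  simp only [hfr, ← trdeg_fractionRing (D := D)]
  refine h.hf_gen hB _ fun f => ?_
  obtain ⟨x, y, -, rfl⟩ := IsFractionRing.div_surjective (A := D) f
  obtain ⟨a, rfl⟩ := hπ x
  obtain ⟨b, rfl⟩ := hπ y
  exact ⟨a, b, rfl⟩

theorem hf (h : Ch g κ e t) : ∃ B : ℕ, ∀ 𝔭 : Ideal g.A, 𝔭.IsPrime → ∃ ρ : ℕ, 0 < ρ ∧
    Tendsto (fun j : ℕ => (hf g.F 𝔭 j : ℝ) / (j : ℝ) ^ dm g 𝔭) atTop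
      (𝓝 (ρ / (dm g 𝔭).factorial * (e : ℝ) ^ dm g 𝔭)) ∧
    ∀ r, r ≤ ρ → ∀ m j, B + r + m ≤ j * e → r * (m + dm g 𝔭).choose (dm g 𝔭) ≤ hf g.F 𝔭 j := by
  obtain ⟨B, hB⟩ := h.red
  refine ⟨B, fun 𝔭 h𝔭 => ?_⟩
  obtain ⟨d, ρ, hd, h'⟩ := h.hf_dom hB (Ideal.Quotient.mkₐ ℂ 𝔭) (Ideal.Quotient.mkₐ_surjective ℂ 𝔭)
  have hdm : dm g 𝔭 = d := by rw [dm, hd, Cardinal.toNat_natCast]
  rw [hdm]
  exact ⟨ρ, h'⟩

end Ch

theorem isIntegral_U (g : GR n K) : IsIntegral (Algebra.adjoin ℂ (range g.z)) g.U := by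
  by_contra hU
  obtain ⟨v, -, hv⟩ := g.sep
  have : minpoly (Algebra.adjoin ℂ (range fun i : Fin n => g.t i.succ / g.t 0)) g.U = 0 := minpoly.eq_zero hU
  simp [this] at hv

theorem isAlgebraic_map (g : GR n K) {D : Type} [CommRing D] [IsDomain D] [Algebra ℂ D] (φ : g.A →ₐ[ℂ] D)
    (a : g.A) : IsAlgebraic (Algebra.adjoin ℂ (range fun i => φ (g.zA i))) (φ a) := by
  set S' := Algebra.adjoin ℂ (range fun i => φ (g.zA i)) with hS'
  let C : Subalgebra ℂ K := (((Subalgebra.algebraicClosure S' D).restrictScalars ℂ).comap φ).map g.A.val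
  have hC : ∀ b : g.A, (b : K) ∈ C ↔ IsAlgebraic S' (φ b) := fun b =>
    ⟨fun ⟨b', hb', e⟩ => (Subtype.ext e : b' = b) ▸ hb', fun hb => ⟨b, hb, rfl⟩⟩
  have hA0 : Algebra.adjoin ℂ (insert g.U (range g.z)) ≤ g.A :=
    (Algebra.adjoin_mono (subset_insert _ _)).trans g.A_eq.ge
  have hSA : Algebra.adjoin ℂ (range g.z) ≤ g.A := (Algebra.adjoin_mono (subset_insert _ _)).trans hA0
  have hUA : g.U ∈ g.A := hA0 (Algebra.subset_adjoin (mem_insert _ _))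
  have hS : Algebra.adjoin ℂ (range g.z) ≤ (S'.comap φ).map g.A.val := by
    rw [Algebra.adjoin_le_iff]
    rintro _ ⟨i, rfl⟩
    exact ⟨g.zA i, Algebra.subset_adjoin ⟨i, rfl⟩, rfl⟩
  let ψ : Algebra.adjoin ℂ (range g.z) →ₐ[ℂ] S' :=
    (φ.comp (Subalgebra.inclusion hSA)).codRestrict S' fun s => by
      obtain ⟨b, hb, e⟩ := hS s.2
      have e' : b = Subalgebra.inclusion hSA s := Subtype.ext e
      show φ (Subalgebra.inclusion hSA s) ∈ S'
      exact e' ▸ hb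
  have hU : IsAlgebraic S' (φ ⟨g.U, hUA⟩) := by
    obtain ⟨Q, hQm, hQ⟩ := isIntegral_U g
    refine IsIntegral.isAlgebraic ⟨Q.map ψ, hQm.map _, ?_⟩
    have h1 : Q.eval₂ (Subalgebra.inclusion hSA).toRingHom ⟨g.U, hUA⟩ = 0 :=
      Subtype.ext ((Polynomial.hom_eval₂ Q _ g.A.val.toRingHom _).trans hQ)
    rw [Polynomial.eval₂_map]
    exact (Polynomial.hom_eval₂ Q (Subalgebra.inclusion hSA).toRingHom φ.toRingHom _).symm.trans
      (by rw [h1, map_zero])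
  have h0 : Algebra.adjoin ℂ (insert g.U (range g.z)) ≤ C := by
    rw [Algebra.adjoin_le_iff]
    rintro _ (rfl | ⟨i, rfl⟩)
    · exact (hC ⟨g.U, hUA⟩).2 hU
    · exact (hC (g.zA i)).2 (isAlgebraic_algebraMap (⟨_, Algebra.subset_adjoin ⟨i, rfl⟩⟩ : S'))
  have hgi : g.g⁻¹ ∈ g.A := g.A_eq.ge (Algebra.subset_adjoin (mem_insert _ _))
  have h1 : g.A ≤ C := by
    refine g.A_eq.le.trans ?_
    rw [Algebra.adjoin_le_iff]
    rintro _ (rfl | hx)
    · have hg := (hC ⟨g.g, hA0 g.g_mem⟩).1 (h0 g.g_mem)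
      have e : φ ⟨g.g, hA0 g.g_mem⟩ * φ ⟨g.g⁻¹, hgi⟩ = 1 := by
        rw [← map_mul, ← map_one φ]
        exact congrArg φ (Subtype.ext (mul_inv_cancel₀ g.g_ne))
      let _ : Invertible (φ ⟨g.g, hA0 g.g_mem⟩) := ⟨_, (mul_comm _ _).trans e, e⟩
      exact (hC ⟨g.g⁻¹, hgi⟩).2 hg.invOf
    · exact h0 (Algebra.subset_adjoin hx)
  exact (hC a).1 (h1 a.2)

theorem exists_der (g : GR n K) : ∃ e : ℕ, ∀ i, ∃ δ : Derivation ℂ g.A g.A,
    (∀ i', δ (g.zA i') = if i' = i then 1 else 0) ∧ ∀ j, ∀ a ∈ g.F j, δ a ∈ g.F (j + e) := by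
  obtain ⟨B, hB⟩ := (ch1 g).red
  obtain ⟨μ, hμ⟩ := (ch1 g).exists_inv
  have hW := fil_Fu (g.t_mem 0) g.t0_ne
  have := hW.fd B
  have h1 : Submodule.span ℂ {μ} * Tx g.zA ^ (g.c * g.k') ≤ g.F 1 := by
    refine Submodule.mul_le.2 fun a ha b hb => ?_
    obtain ⟨c, rfl⟩ := Submodule.mem_span_singleton.1 ha
    rw [smul_mul_assoc]
    refine Submodule.smul_mem _ c ((ch1 g).mem_F.2 ?_)
    rw [pow_one, one_mul, mul_right_comm, mul_comm μ, hμ, one_mul]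
    exact hW.pow_le hB.1 _ hb
  have h2 : ∀ j, g.F j ≤ (Submodule.span ℂ {μ} * Tx g.zA ^ (g.c * g.k')) ^ j * Fu g (g.t 0) g.k B := by
    intro j f hf
    have e1 : μ ^ j * (f * (ch1 g).υ ^ j) = f := by
      rw [mul_left_comm, ← mul_pow, mul_comm μ, hμ, one_pow, mul_one]
    rw [mul_pow, ← pow_mul, mul_assoc, mul_comm (g.c * g.k') j, ← e1]
    exact Submodule.mul_mem_mul (Submodule.pow_mem_pow _ (Submodule.mem_span_singleton_self μ) j)
      (hB.le_pow' hW (one_mem_Tx _) _ ((ch1 g).mem_F.1 hf))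
  have key : ∀ i, ∃ (e : ℕ) (δ : Derivation ℂ g.A g.A), (∀ i', δ (g.zA i') = if i' = i then 1 else 0) ∧
      ∀ j, ∀ a ∈ g.F j, δ a ∈ g.F (j + e) := by
    intro i
    obtain ⟨δ, hδ⟩ := exists_derivation g.indep fun i' => if i' = i then 1 else 0
    obtain ⟨δ', hδ'⟩ := exists_restrict δ fun a ha =>
      der_mem g.g_mem g.A_eq g.sep δ (fun i' => by rw [hδ]; split_ifs <;> simp) ha
    have h3 : ∀ i', δ' (g.zA i') = if i' = i then 1 else 0 := fun i' => by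
      refine Subtype.ext ((hδ' _).trans ((hδ i').trans ?_))
      split_ifs <;> rfl
    obtain ⟨e, he⟩ := der_filt (fil_F g) (exh_F g) hμ h1 h2 δ' fun i' => by rw [h3]; split_ifs <;> simp
    exact ⟨e, δ', h3, he⟩
  choose e δ h3 h4 using key
  refine ⟨∑ i, e i, fun i => ⟨δ i, h3 i, fun j a ha => (fil_F g).mono ?_ (h4 i j a ha)⟩⟩
  exact Nat.add_le_add_left (Finset.single_le_sum (fun _ _ => Nat.zero_le _) (Finset.mem_univ i)) j

end Crest.Agent.R271.T2
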