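import Crest.Agent.R271.T2.Gr

/-! # Row 271, block T2.  Hilbert functions, dimension, derivations. See `Crest/Agent/R271/Blueprint.lean`, section T2. -/

set_option autoImplicit false

open Set Filter Topology

namespace Crest.Agent.R271

namespace T2

variable {n : ℕ} {K : Type} [Field K] [Algebra ℂ K] (g : GR n K)

theorem coord (𝔭 : Ideal g.A) (h : 𝔭.IsPrime) : ∃ ι : Fin (dm g 𝔭) → Fin n, Function.Injective ι ∧
    IsTranscendenceBasis ℂ fun i => Ideal.Quotient.mk 𝔭 (g.zA (ι i)) := by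
  refine exists_coord (fun i => Ideal.Quotient.mk 𝔭 (g.zA i)) fun a => ?_
  obtain ⟨a, rfl⟩ := Ideal.Quotient.mk_surjective a
  exact isAlgebraic_map g (Ideal.Quotient.mkₐ ℂ 𝔭) a

theorem dm_le (𝔭 : Ideal g.A) (h : 𝔭.IsPrime) : dm g 𝔭 ≤ n := by
  obtain ⟨ι, hι, -⟩ := coord g 𝔭 h
  simpa using Fintype.card_le_of_injective ι hι

theorem dm_bot : dm g ⊥ = n := by
  have h1 : AlgebraicIndependent ℂ g.zA := AlgebraicIndependent.of_comp g.A.val g.indep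
  have h2 : AlgebraicIndependent ℂ fun i => Ideal.Quotient.mkₐ ℂ (⊥ : Ideal g.A) (g.zA i) :=
    h1.map' ((Ideal.Quotient.mk_bijective_iff_eq_bot _).2 rfl).1
  refine toNat_trdeg (h2.isTranscendenceBasis_iff_isAlgebraic.2 ⟨fun a => ?_⟩)
  obtain ⟨a, rfl⟩ := Ideal.Quotient.mk_surjective a
  exact isAlgebraic_map g (Ideal.Quotient.mkₐ ℂ ⊥) a

theorem dm_lt (𝔭 𝔮 : Ideal g.A) (h : 𝔭.IsPrime) (h' : 𝔮.IsPrime) (hlt : 𝔭 < 𝔮) : dm g 𝔮 < dm g 𝔭 := by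
  obtain ⟨ι, -, hι⟩ := coord g 𝔭 h
  obtain ⟨ι', -, hι'⟩ := coord g 𝔮 h'
  obtain ⟨a, ha, ha'⟩ := SetLike.exists_of_lt hlt
  exact trdeg_lt hι hι' (Ideal.Quotient.factorₐ ℂ hlt.le) (Ideal.Quotient.factor_surjective hlt.le)
    (a := Ideal.Quotient.mk 𝔭 a) (fun h0 => ha' (Ideal.Quotient.eq_zero_iff_mem.1 h0))
    (Ideal.Quotient.eq_zero_iff_mem.2 ha)

theorem dm_zero (𝔭 : Ideal g.A) (h : 𝔭.IsPrime) (h0 : dm g 𝔭 = 0) : 𝔭.IsMaximal := by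
  obtain ⟨ι, -, hι⟩ := coord g 𝔭 h
  exact Ideal.Quotient.maximal_of_isField _ (isField_of_basis hι h0)

theorem hf1 (𝔭 : Ideal g.A) (h : 𝔭.IsPrime) : ∃ e : ℝ, 0 < e ∧
    Tendsto (fun j : ℕ => (hf g.F 𝔭 j : ℝ) / (j : ℝ) ^ dm g 𝔭) atTop (𝓝 e) := by
  obtain ⟨B, hB⟩ := (ch1 g).hf
  obtain ⟨ρ, hρ, ht, -⟩ := hB 𝔭 h
  have := (ch1 g).e_pos
  exact ⟨_, by positivity, ht⟩

theorem hf2 (ε : ℝ) (hε : 0 < ε) : ∃ j₀ : ℕ, ∀ j ≥ j₀, ∀ 𝔭 : Ideal g.A, 𝔭.IsPrime →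
    (1 - ε) * (((g.c * g.k * g.k' : ℕ) : ℝ) * j) ^ dm g 𝔭 / (dm g 𝔭).factorial ≤ hf g.F 𝔭 j := by
  obtain ⟨B, hB⟩ := (ch1 g).hf
  obtain ⟨B', hB'⟩ := (ch2 g).hf
  obtain ⟨j₀, hJ, hj₀⟩ := exists_bernoulli n (B + g.k ^ n) hε
  refine ⟨j₀, fun j hj 𝔭 h => ?_⟩
  obtain ⟨ρ, hρ, ht, hlow⟩ := hB 𝔭 h
  obtain ⟨ρ', -, ht', -⟩ := hB' 𝔭 h
  set d := dm g 𝔭 with hd
  have hdn : d ≤ n := dm_le g 𝔭 h
  have hfac : (0 : ℝ) < d.factorial := by positivity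
  have heq : ρ * (g.c * g.k') ^ d = ρ' * (g.c * g.k) ^ d := by
    have h1 := tendsto_nhds_unique ht ht'
    rw [div_mul_eq_mul_div, div_mul_eq_mul_div, div_left_inj' hfac.ne'] at h1
    exact_mod_cast h1
  have hk : g.k ^ d ≤ ρ := pow_le_of_coprime g.bez g.c_pos hρ heq
  have hje : j₀ ≤ j * (g.c * g.k') := hj.trans (Nat.le_mul_of_pos_right j (ch1 g).e_pos)
  have hkd : g.k ^ d ≤ g.k ^ n := Nat.pow_le_pow_right g.k_pos hdn
  have h1 := hlow _ hk (j * (g.c * g.k') - (B + g.k ^ n)) j (by omega)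
  have h2 := hj₀ _ hje d hdn
  have h3 := pow_le_choose (j * (g.c * g.k') - (B + g.k ^ n)) d
  have h4 : (0 : ℝ) ≤ (g.k : ℝ) ^ d := by positivity
  calc (1 - ε) * (((g.c * g.k * g.k' : ℕ) : ℝ) * j) ^ d / d.factorial
      = (g.k : ℝ) ^ d * ((1 - ε) * ((j * (g.c * g.k') : ℕ) : ℝ) ^ d / d.factorial) := by
        rw [show ((g.c * g.k * g.k' : ℕ) : ℝ) * j = g.k * ((j * (g.c * g.k') : ℕ) : ℝ) by push_cast; ring,
          mul_pow]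
        ring
    _ ≤ (g.k : ℝ) ^ d * ((j * (g.c * g.k') - (B + g.k ^ n) + d).choose d : ℝ) :=
        mul_le_mul_of_nonneg_left ((div_le_div_of_nonneg_right h2 hfac.le).trans h3) h4
    _ ≤ _ := by exact_mod_cast h1

end T2

open T2 in
theorem stT2 : StT2 := fun _ _ _ _ g _ => ⟨dm g,
  { mono := (fil_F g).mono
    one_mem := (fil_F g).one_zero
    mul_mem := fun _ _ _ ha _ hb => (fil_F g).mul_mem ha hb
    exh := exh_F g
    fd := (fil_F g).fd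
    der := exists_der g
    dm_bot := dm_bot g
    dm_lt := dm_lt g
    dm_zero := dm_zero g
    coord := coord g
    hf1 := hf1 g
    hf2 := hf2 g }⟩

end Crest.Agent.R271
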