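import Crest.Agent.R271.T2.Poly

/-! # Row 271, block T2: Noether normalisation as a minimal reduction

Induction on `d`.  If `x` is not algebraically independent take `P ≠ 0` with `aeval x P = 0`, `m = P.totalDegree ≥ 1`, a point `v` with
`eval v (homogeneousComponent m P) ≠ 0` (`MvPolynomial.funext`), so `v i₀ ≠ 0` for some `i₀`.  Put `u = (v i₀)⁻¹ • x i₀`,
`x' i = x (i₀.succAbove i) - v (i₀.succAbove i) • u`, `T = Tx x`, `T' = Tx x'`.  Then `T' ≤ T ≤ T' ⊔ span {u}`, every
`x i - v i • u ∈ T'`, a monomial `x^e` of degree `m` is `v^e • u^m` modulo `T' * T^(m-1)`, monomials of smaller degree lie in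
`T' * T^(m-1)` (`1 ∈ T'`).  Hence `u^m ∈ T' * T^(m-1)`, `T^m ≤ T' * T^(m-1)`, and for `j + 1 = B₀ + m`, `B₀ ≥ B`:
`W (j+1) ≤ T^m * W B₀ ≤ T' * (T^(m-1) * W B₀) ≤ T' * W j`. -/

set_option autoImplicit false

open Set Module MvPolynomial

noncomputable section

namespace Crest.Agent.R271.T2

variable {L : Type} [Field L] [Algebra ℂ L] {W : ℕ → Submodule ℂ L}

theorem noether_key {N k : ℕ} {t : Fin N → L} {v : Fin N → ℂ} {u : L} {T' : Submodule ℂ L} (h1 : (1 : L) ∈ T')
    (hu : u ∈ Tx t) (h : ∀ i, t i - v i • u ∈ T') {P : MvPolynomial (Fin N) ℂ} (hP : P.totalDegree ≤ k + 1) :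
    aeval t P - eval v (homogeneousComponent (k + 1) P) • u ^ (k + 1) ∈ T' * Tx t ^ k := by
  classical
  set T := Tx t
  let Q : ℕ → Submodule ℂ L := fun n => Nat.casesOn n ⊥ fun n => T' * T ^ n
  have hQ : ∀ n m, Q n * T ^ m ≤ Q (n + m) := fun n m => by
    cases n with
    | zero => simp [Q]
    | succ n => rw [Nat.succ_add]; simp only [Q, mul_assoc, pow_add, le_rfl]
  let S : Submonoid (L × ℂ × Multiplicative ℕ) :=
    { carrier := {z | z.1 ∈ T ^ z.2.2.toAdd ∧ z.1 - z.2.1 • u ^ z.2.2.toAdd ∈ Q z.2.2.toAdd}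
      one_mem' := ⟨by simpa using Submodule.one_le.1 le_rfl, by simp⟩
      mul_mem' := fun {a b} ha hb => by
        refine ⟨by simpa only [Prod.fst_mul, Prod.snd_mul, toAdd_mul, pow_add] using Submodule.mul_mem_mul ha.1 hb.1, ?_⟩
        have h2 := hQ _ _ (Submodule.mul_mem_mul ha.2 hb.1)
        have h3 := hQ _ _ (Submodule.mul_mem_mul hb.2
          (Submodule.smul_mem _ a.2.1 (Submodule.pow_mem_pow T hu a.2.2.toAdd)))
        rw [add_comm] at h3
        have h4 := add_mem h2 h3
        simp only [Prod.fst_mul, Prod.snd_mul, toAdd_mul, pow_add, Algebra.smul_def, map_mul] at h4 ⊢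
        convert h4 using 1
        ring }
  have hS : ∀ e : Fin N →₀ ℕ, (e.prod fun i n => t i ^ n) ∈ T ^ e.degree ∧
      (e.prod fun i n => t i ^ n) - (e.prod fun i n => v i ^ n) • u ^ e.degree ∈ Q e.degree := fun e => by
    have := S.prod_mem (t := e.support) (f := fun i => (t i, v i, Multiplicative.ofAdd 1) ^ e i) fun i _ =>
      S.pow_mem (x := (t i, v i, Multiplicative.ofAdd 1))
        ⟨by simpa using mem_Tx t i, by simpa [Q] using h i⟩ _
    simpa [S, Prod.fst_prod, Prod.snd_prod, toAdd_prod, Finsupp.prod, Finsupp.degree] using this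
  rw [homogeneousComponent_apply, map_sum, Finset.sum_filter, Finset.sum_smul]
  rw [show aeval t P = ∑ e ∈ P.support, aeval t (monomial e (coeff e P)) by rw [← map_sum, ← P.as_sum],
    ← Finset.sum_sub_distrib]
  refine Submodule.sum_mem _ fun e he => ?_
  rw [aeval_monomial, eval_monomial, ← Algebra.smul_def]
  split_ifs with hd
  · rw [mul_smul, ← smul_sub]
    have := (hS e).2
    rw [hd] at this
    exact Submodule.smul_mem _ _ this
  · have h2 : e.degree ≤ k := Nat.le_of_lt_succ (lt_of_le_of_ne ((le_totalDegree he).trans hP) hd)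
    rw [zero_smul, sub_zero]
    simpa using Submodule.smul_mem _ (coeff e P) (Submodule.mul_mem_mul h1
      (pow_mono_of_one_mem (one_mem_Tx t) h2 (hS e).1))

theorem noether (hW : Fil W) {N B : ℕ} {t : Fin N → L} (hR : Red W (Tx t) B) :
    ∃ (d : ℕ) (x : Fin d → L) (B' : ℕ), AlgebraicIndependent ℂ x ∧ Red W (Tx x) B' := by
  classical
  induction N generalizing B with
  | zero => exact ⟨0, t, B, algebraicIndependent_empty_type, hR⟩
  | succ d ih =>
    by_cases hi : AlgebraicIndependent ℂ t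
    · exact ⟨_, t, B, hi, hR⟩
    obtain ⟨P, h0, hP⟩ : ∃ P : MvPolynomial (Fin (d + 1)) ℂ, aeval t P = 0 ∧ P ≠ 0 := by
      simpa [algebraicIndependent_iff] using hi
    obtain ⟨k, hk⟩ : ∃ k, P.totalDegree = k + 1 := Nat.exists_eq_succ_of_ne_zero fun h => hP (by
      rw [totalDegree_eq_zero_iff_eq_C] at h
      rw [h, aeval_C, map_eq_zero] at h0
      rw [h, h0, map_zero])
    obtain ⟨v, hv⟩ : ∃ v, eval v (homogeneousComponent (k + 1) P) ≠ 0 := by
      by_contra! hc
      obtain ⟨e, he, h⟩ := Finset.exists_mem_eq_sup P.support (support_nonempty.2 hP)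
        fun s => s.sum fun _ n => n
      have := congrArg (coeff e) (MvPolynomial.funext (q := 0) fun x => (hc x).trans (map_zero _).symm)
      rw [coeff_homogeneousComponent, if_pos (show e.degree = k + 1 from h.symm.trans hk)] at this
      exact mem_support_iff.1 he this
    obtain ⟨i₀, hi₀⟩ : ∃ i, v i ≠ 0 := by
      by_contra! hc
      rw [show v = 0 from funext hc, eval_zero, constantCoeff_eq] at hv
      exact hv ((homogeneousComponent_isHomogeneous _ _).coeff_eq_zero (by simp))
    set u := (v i₀)⁻¹ • t i₀ with hu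
    have hu' : u ∈ Tx t := Submodule.smul_mem _ _ (mem_Tx t i₀)
    set x : Fin d → L := fun i => t (i₀.succAbove i) - v (i₀.succAbove i) • u
    have h1 : ∀ i, t i - v i • u ∈ Tx x := fun i => by
      rcases Fin.eq_self_or_eq_succAbove i₀ i with rfl | ⟨j, rfl⟩
      · rw [hu, smul_inv_smul₀ hi₀, sub_self]; exact zero_mem _
      · exact mem_Tx x j
    have h2 := Submodule.smul_mem _ (-(eval v (homogeneousComponent (k + 1) P))⁻¹)
      (noether_key (one_mem_Tx x) hu' h1 hk.le)
    rw [h0, zero_sub, neg_smul_neg, inv_smul_smul₀ hv] at h2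
    have h3 : Tx t ^ (k + 1) ≤ Tx x * Tx t ^ k := fun w hw => by
      rw [Tx_pow] at hw
      obtain ⟨Q, hQ, rfl⟩ := mem_Pm.1 hw
      simpa using add_mem (noether_key (one_mem_Tx x) hu' h1 hQ) (Submodule.smul_mem _
        (eval v (homogeneousComponent (k + 1) Q)) h2)
    refine ih (t := x) (B := B + k) ⟨le_trans (Submodule.span_le.2 ?_) hR.1, fun j hj => ?_⟩
    · rintro _ (rfl | ⟨i, rfl⟩)
      · exact one_mem_Tx t
      · exact sub_mem (mem_Tx t _) (Submodule.smul_mem _ _ hu')
    · obtain ⟨i, rfl⟩ := Nat.exists_eq_add_of_le hj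
      have h4 := Red.le_pow (B := B + i) ⟨hR.1, fun j h => hR.2 j (by omega)⟩ (k + 1)
      rw [show B + k + i + 1 = B + i + (k + 1) by ring]
      refine h4.trans ((mul_le_mul' h3 le_rfl).trans ?_)
      rw [mul_assoc, show B + k + i = k + (B + i) by ring]
      exact mul_le_mul' le_rfl ((mul_le_mul' (hW.pow_le hR.1 k) le_rfl).trans (hW.mul_le _ _))

end Crest.Agent.R271.T2
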