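import Crest.Agent.R271.Defs

/-! # Row 271, block T2: filtrations, reductions, polynomials of bounded degree (owner helper97) -/

set_option autoImplicit false

open Set Module MvPolynomial

noncomputable section

namespace Crest.Agent.R271.T2

variable {D D' : Type} [CommRing D] [Algebra ℂ D] [CommRing D'] [Algebra ℂ D']

/-- an increasing multiplicative filtration by finite dimensional subspaces -/
structure Fil (W : ℕ → Submodule ℂ D) : Prop where
  one_zero : (1 : D) ∈ W 0
  one_one : (1 : D) ∈ W 1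
  mul_le : ∀ i j, W i * W j ≤ W (i + j)
  fd : ∀ j, FiniteDimensional ℂ (W j)

/-- `T` generates the filtration from degree `B` on -/
def Red (W : ℕ → Submodule ℂ D) (T : Submodule ℂ D) (B : ℕ) : Prop :=
  T ≤ W 1 ∧ ∀ j, B ≤ j → W (j + 1) ≤ T * W j

/-- affine linear forms in `x` -/
def Tx {d : ℕ} (x : Fin d → D) : Submodule ℂ D := Submodule.span ℂ (insert 1 (range x))

/-- polynomials in `x` of degree at most `m` -/
def Pm {d : ℕ} (x : Fin d → D) (m : ℕ) : Submodule ℂ D :=
  (restrictTotalDegree (Fin d) ℂ m).map (aeval x : MvPolynomial (Fin d) ℂ →ₐ[ℂ] D).toLinearMap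

variable {W : ℕ → Submodule ℂ D} {T : Submodule ℂ D} {B d : ℕ} {x : Fin d → D}

theorem Fil.mul_mem (h : Fil W) {i j : ℕ} {a b : D} (ha : a ∈ W i) (hb : b ∈ W j) :
    a * b ∈ W (i + j) := by
  exact h.mul_le i j (Submodule.mul_mem_mul ha hb)

theorem Fil.mono (h : Fil W) : Monotone W := by
  refine monotone_nat_of_le_succ fun j a ha => ?_
  simpa using h.mul_mem ha h.one_one

theorem Fil.one_mem (h : Fil W) (j : ℕ) : (1 : D) ∈ W j := by
  exact h.mono (Nat.zero_le j) h.one_zero

theorem Fil.pow_le (h : Fil W) (hT : T ≤ W 1) (m : ℕ) : T ^ m ≤ W m := by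
  induction m with
  | zero => rw [pow_zero, Submodule.one_le]; exact h.one_zero
  | succ m ih => rw [pow_succ]; exact (mul_le_mul' ih hT).trans (h.mul_le m 1)

theorem Red.le_pow (h : Red W T B) (m : ℕ) : W (B + m) ≤ T ^ m * W B := by
  induction m with
  | zero => simp
  | succ m ih =>
    rw [pow_succ', mul_assoc, ← add_assoc]
    exact (h.2 _ (Nat.le_add_right B m)).trans (mul_le_mul' le_rfl ih)

theorem pow_mono_of_one_mem (hT : (1 : D) ∈ T) : Monotone fun m : ℕ => T ^ m := by
  refine monotone_nat_of_le_succ fun j a ha => ?_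
  rw [pow_succ]
  simpa using Submodule.mul_mem_mul ha hT

theorem Red.le_pow' (hW : Fil W) (h : Red W T B) (hT : (1 : D) ∈ T) (m : ℕ) : W m ≤ T ^ m * W B := by
  rcases le_total m B with hm | hm
  · intro a ha
    have h1 : (1 : D) ∈ T ^ m := by simpa using Submodule.pow_mem_pow T hT m
    simpa using Submodule.mul_mem_mul h1 (hW.mono hm ha)
  · obtain ⟨i, rfl⟩ := Nat.exists_eq_add_of_le hm
    exact (h.le_pow i).trans (mul_le_mul' (pow_mono_of_one_mem hT (Nat.le_add_left i B)) le_rfl)

theorem Fil.map (h : Fil W) (φ : D →ₐ[ℂ] D') : Fil fun j => (W j).map φ.toLinearMap := by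
  refine ⟨⟨1, h.one_zero, map_one φ⟩, ⟨1, h.one_one, map_one φ⟩, fun i j => ?_, fun j => ?_⟩
  · rw [← Submodule.map_mul]
    exact Submodule.map_mono (h.mul_le i j)
  · have := h.fd j
    infer_instance

theorem map_Tx (x : Fin d → D) (φ : D →ₐ[ℂ] D') :
    (Tx x).map φ.toLinearMap = Tx fun i => φ (x i) := by
  rw [Tx, Tx, Submodule.map_span, image_insert_eq, ← range_comp]
  simp only [AlgHom.toLinearMap_apply, map_one]
  rfl

theorem Red.map (h : Red W T B) (φ : D →ₐ[ℂ] D') :
    Red (fun j => (W j).map φ.toLinearMap) (T.map φ.toLinearMap) B := by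
  refine ⟨Submodule.map_mono h.1, fun j hj => ?_⟩
  rw [← Submodule.map_mul]
  exact Submodule.map_mono (h.2 j hj)

theorem one_mem_Tx (x : Fin d → D) : (1 : D) ∈ Tx x := by
  exact Submodule.subset_span (mem_insert _ _)

theorem mem_Tx (x : Fin d → D) (i : Fin d) : x i ∈ Tx x := by
  exact Submodule.subset_span (mem_insert_of_mem _ ⟨i, rfl⟩)

theorem mem_Pm {m : ℕ} {w : D} :
    w ∈ Pm x m ↔ ∃ P : MvPolynomial (Fin d) ℂ, P.totalDegree ≤ m ∧ aeval x P = w := by
  simp only [Pm, Submodule.mem_map, mem_restrictTotalDegree, AlgHom.toLinearMap_apply]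

theorem Tx_pow (x : Fin d → D) (m : ℕ) : Tx x ^ m = Pm x m := by
  apply le_antisymm
  · have h1 : Tx x ≤ Pm x 1 := by
      rw [Tx, Submodule.span_le]
      rintro _ (rfl | ⟨i, rfl⟩)
      · exact mem_Pm.2 ⟨1, by simp, map_one _⟩
      · exact mem_Pm.2 ⟨X i, (totalDegree_X i).le, aeval_X _ _⟩
    induction m with
    | zero => rw [pow_zero, Submodule.one_le]; exact mem_Pm.2 ⟨1, by simp, map_one _⟩
    | succ m ih =>
      rw [pow_succ, Submodule.mul_le]
      intro a ha b hb
      obtain ⟨P, hP, rfl⟩ := mem_Pm.1 (ih ha)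
      obtain ⟨Q, hQ, rfl⟩ := mem_Pm.1 (h1 hb)
      exact mem_Pm.2 ⟨P * Q, (totalDegree_mul P Q).trans (add_le_add hP hQ), map_mul _ _ _⟩
  · intro w hw
    obtain ⟨P, hP, rfl⟩ := mem_Pm.1 hw
    rw [P.as_sum, map_sum]
    refine Submodule.sum_mem _ fun e he => ?_
    rw [aeval_monomial, ← Algebra.smul_def]
    refine Submodule.smul_mem _ _ (pow_mono_of_one_mem (one_mem_Tx x) ((le_totalDegree he).trans hP) ?_)
    simp only [Finsupp.sum, Finsupp.prod, ← Finset.prod_pow_eq_pow_sum]
    exact Finset.prod_hom_rel (r := fun (a : D) (M : Submodule ℂ D) => a ∈ M) (Submodule.one_le.1 le_rfl)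
      fun i _ _ h => Submodule.mul_mem_mul (Submodule.pow_mem_pow _ (mem_Tx x i) _) h

theorem finrank_restrict (d m : ℕ) :
    finrank ℂ (restrictTotalDegree (Fin d) ℂ m) = (m + d).choose d := by
  classical
  have h1 := Module.finrank_eq_nat_card_basis
    (basisRestrictSupport ℂ {e : Fin d →₀ ℕ | (e.sum fun _ n => n) ≤ m})
  refine h1.trans ?_
  have h2 : {e : Fin d →₀ ℕ | (e.sum fun _ n => n) ≤ m} =
      ↑((Finset.range (m + 1)).biUnion fun i => Finset.finsuppAntidiag (Finset.univ : Finset (Fin d)) i) := by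
    ext e
    simp [Finset.mem_finsuppAntidiag, Finsupp.sum_fintype]
  rw [h2, Nat.card_coe_set_eq, Set.ncard_coe_finset, Finset.card_biUnion]
  · simp only [Finset.card_finsuppAntidiag_nat_eq_multichoose, Finset.card_univ, Fintype.card_fin]
    exact Nat.sum_range_multichoose m d
  · intro i _ j _ hij
    refine Finset.disjoint_left.2 fun e h1 h2 => hij ?_
    rw [Finset.mem_finsuppAntidiag] at h1 h2
    exact h1.1.symm.trans h2.1

end Crest.Agent.R271.T2
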